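import Mathlib

/-!
# P097 / Edge: continuation on convex sets from local extension (abstract)
-/

set_option linter.all false

open Complex Metric Filter Topology Set

namespace Vale.Agent.P097.H456.Edge

/-- a class of pairs (open set, holomorphic function on it) -/
structure Cls (𝒢 : Set ℂ → (ℂ → ℂ) → Prop) : Prop where
  df : ∀ U f, 𝒢 U f → DifferentiableOn ℂ f U
  /-- restriction to nonempty open convex subsets of open convex sets -/
  res : ∀ U V f, 𝒢 U f → IsOpen U → Convex ℝ U → IsOpen V → Convex ℝ V → V.Nonempty → V ⊆ U → 𝒢 V f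
  /-- locality -/
  glue : ∀ U V f, IsOpen U → IsOpen V → 𝒢 U f → 𝒢 V f → 𝒢 (U ∪ V) f
  /-- congruence -/
  congr : ∀ U f g, IsOpen U → 𝒢 U f → EqOn f g U → 𝒢 U g
  /-- restriction from a (possibly non convex) union to an open convex subset through a point -/
  res' : ∀ U V f, 𝒢 U f → IsOpen U → IsPreconnected U → IsOpen V → V.Nonempty → V ⊆ U → 𝒢 V f
  loc : ∀ U f, IsOpen U → U.Nonempty → DifferentiableOn ℂ f U →
    (∀ z ∈ U, ∃ V, IsOpen V ∧ z ∈ V ∧ V ⊆ U ∧ 𝒢 V f) → 𝒢 U f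

/-- local extension property at `τ` -/
def LocExt (𝒢 : Set ℂ → (ℂ → ℂ) → Prop) (W : Set ℂ) : Prop :=
  ∀ τ ∈ W, ∃ ρ > 0, ball τ ρ ⊆ W ∧ ∀ V f, IsOpen V → Convex ℝ V → V.Nonempty → V ⊆ ball τ ρ →
    𝒢 V f → ∃ g, 𝒢 (ball τ ρ) g ∧ EqOn g f V

/-- a convex open set around the segment from `t₀` to `z` with an extension -/
def Ch (𝒢 : Set ℂ → (ℂ → ℂ) → Prop) (W : Set ℂ) (f₀ : ℂ → ℂ) (t₀ z : ℂ) (U : Set ℂ)
    (f : ℂ → ℂ) : Prop :=
  IsOpen U ∧ Convex ℝ U ∧ segment ℝ t₀ z ⊆ U ∧ U ⊆ W ∧ 𝒢 U f ∧ f =ᶠ[𝓝 t₀] f₀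

theorem isCompact_seg (x y : ℂ) : IsCompact (segment ℝ x y) := by
  rw [segment_eq_image']
  exact isCompact_Icc.image (by fun_prop)

theorem step_seg {𝒢 : Set ℂ → (ℂ → ℂ) → Prop} (hG : Cls 𝒢) {W : Set ℂ} (hL : LocExt 𝒢 W)
    {f₀ : ℂ → ℂ} {t₀ z : ℂ} (hseg : segment ℝ t₀ z ⊆ W)
    (h0 : ∃ U f, Ch 𝒢 W f₀ t₀ t₀ U f) : ∃ U f, Ch 𝒢 W f₀ t₀ z U f := by
  set γ : ℝ → ℂ := fun s => t₀ + s * (z - t₀) with hγ
  have hγc : Continuous γ := by rw [hγ]; fun_prop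
  have hsegγ : ∀ s ∈ Icc (0 : ℝ) 1, ∀ s' ∈ Icc (0 : ℝ) 1, s ≤ s' → γ s ∈ segment ℝ t₀ (γ s') := by
    intro s hs s' hs' hss
    rcases eq_or_lt_of_le (hs.1.trans hss) with h | h
    · have h1 : s = 0 := le_antisymm (hss.trans h.symm.le) hs.1
      rw [h1]; simp only [hγ, ofReal_zero, zero_mul, add_zero]
      exact left_mem_segment ℝ _ _
    · rw [segment_eq_image']
      refine ⟨s / s', ⟨div_nonneg hs.1 h.le, div_le_one_of_le₀ hss h.le⟩, ?_⟩
      simp only [hγ, Complex.real_smul]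
      have h2 : (s' : ℂ) ≠ 0 := by exact_mod_cast h.ne'
      push_cast
      field_simp
      ring
  have hseg' : ∀ s ∈ Icc (0 : ℝ) 1, segment ℝ t₀ (γ s) ⊆ segment ℝ t₀ z := by
    intro s hs
    have h1 : γ s ∈ segment ℝ t₀ z := by
      rw [segment_eq_image']
      exact ⟨s, hs, by simp only [hγ, Complex.real_smul]⟩
    exact (convex_segment t₀ z).segment_subset (left_mem_segment ℝ _ _) h1
  set T : Set ℝ := {s | s ∈ Icc (0 : ℝ) 1 ∧ ∃ U f, Ch 𝒢 W f₀ t₀ (γ s) U f} with hT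
  have hT0 : (0 : ℝ) ∈ T := by
    refine ⟨⟨le_rfl, zero_le_one⟩, ?_⟩
    have : γ 0 = t₀ := by simp [hγ]
    rw [this]; exact h0
  have hTne : T.Nonempty := ⟨0, hT0⟩
  have hTb : BddAbove T := ⟨1, fun s hs => hs.1.2⟩
  set S := sSup T with hS
  have hS0 : 0 ≤ S := le_csSup hTb hT0
  have hS1 : S ≤ 1 := csSup_le hTne fun s hs => hs.1.2
  have hSm : S ∈ Icc (0 : ℝ) 1 := ⟨hS0, hS1⟩
  -- the limit point
  have hτW : γ S ∈ W := hseg (hseg' S hSm (right_mem_segment ℝ _ _))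
  obtain ⟨ρ, hρ, hρW, hext⟩ := hL (γ S) hτW
  obtain ⟨δ, hδ, hδρ⟩ := Metric.continuousAt_iff.1 hγc.continuousAt ρ hρ
  obtain ⟨s, hsT, hsS⟩ := exists_lt_of_lt_csSup hTne (show S - δ < S by linarith)
  have hsle : s ≤ S := le_csSup hTb hsT
  obtain ⟨⟨hs0, hs1⟩, U, f, hUo, hUc, hUs, hUW, hUf, hUe⟩ := hsT
  have hsball : γ s ∈ ball (γ S) ρ := by
    apply hδρ
    rw [Real.dist_eq, abs_lt]; constructor <;> linarith
  set V := U ∩ ball (γ S) ρ with hV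
  have hVo : IsOpen V := hUo.inter isOpen_ball
  have hVc : Convex ℝ V := hUc.inter (convex_ball _ _)
  have hVn : V.Nonempty := ⟨γ s, hUs (right_mem_segment ℝ _ _), hsball⟩
  have hVf : 𝒢 V f := hG.res U V f hUf hUo hUc hVo hVc hVn inter_subset_left
  obtain ⟨g, hg, hgf⟩ := hext V f hVo hVc hVn inter_subset_right hVf
  -- glue
  classical
  set F : ℂ → ℂ := fun x => if x ∈ U then f x else g x with hF
  have hFU : EqOn f F U := fun x hx => by simp [hF, hx]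
  have hFb : EqOn g F (ball (γ S) ρ) := fun x hx => by
    by_cases h : x ∈ U
    · simp only [hF, if_pos h]; exact hgf ⟨h, hx⟩
    · simp [hF, h]
  have hF𝒢 : 𝒢 (U ∪ ball (γ S) ρ) F := hG.glue _ _ _ hUo isOpen_ball
    (hG.congr _ _ _ hUo hUf hFU) (hG.congr _ _ _ isOpen_ball hg hFb)
  have hpre : IsPreconnected (U ∪ ball (γ S) ρ) :=
    IsPreconnected.union (γ s) (hUs (right_mem_segment ℝ _ _)) hsball hUc.isPreconnected
      (convex_ball _ _).isPreconnected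
  have ht₀U : t₀ ∈ U := hUs (left_mem_segment ℝ _ _)
  have hFe : F =ᶠ[𝓝 t₀] f₀ := by
    filter_upwards [hUe, hUo.mem_nhds ht₀U] with x hx hxU
    rw [← hFU hxU, hx]
  -- all `s'` with `γ s' ∈ ball` are good
  have hgood : ∀ s' ∈ Icc (0 : ℝ) 1, s ≤ s' → (∀ r ∈ Icc s s', γ r ∈ ball (γ S) ρ) →
      ∃ U f, Ch 𝒢 W f₀ t₀ (γ s') U f := by
    intro s' hs' hss' hr
    have hsub : segment ℝ t₀ (γ s') ⊆ U ∪ ball (γ S) ρ := by
      rw [segment_eq_image']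
      rintro _ ⟨r, hr0, rfl⟩
      have e1 : t₀ + r • (γ s' - t₀) = γ (r * s') := by
        simp only [hγ, Complex.real_smul]; push_cast; ring
      show t₀ + r • (γ s' - t₀) ∈ _
      rw [e1]
      have h1 : r * s' ≤ s' := by
        have := mul_le_mul_of_nonneg_right hr0.2 hs'.1
        linarith
      have h2 : 0 ≤ r * s' := mul_nonneg hr0.1 hs'.1
      rcases le_total (r * s') s with h | h
      · exact Or.inl (hUs (hsegγ _ ⟨h2, h.trans hs1⟩ s ⟨hs0, hs1⟩ h))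
      · exact Or.inr (hr _ ⟨h, h1⟩)
    obtain ⟨ε, hε, hεs⟩ := (isCompact_seg t₀ (γ s')).exists_thickening_subset_open
      (hUo.union isOpen_ball) hsub
    have hne : (thickening ε (segment ℝ t₀ (γ s'))).Nonempty :=
      ⟨t₀, self_subset_thickening hε _ (left_mem_segment ℝ _ _)⟩
    exact ⟨thickening ε (segment ℝ t₀ (γ s')), F, isOpen_thickening,
      (convex_segment _ _).thickening _, self_subset_thickening hε _,
      hεs.trans (union_subset hUW hρW),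
      hG.res' _ _ _ hF𝒢 (hUo.union isOpen_ball) hpre isOpen_thickening hne hεs, hFe⟩
  -- `S = 1`
  have hS1' : S = 1 := by
    by_contra hne
    have hlt : S < 1 := lt_of_le_of_ne hS1 hne
    set s' := min 1 (S + δ / 2) with hs'
    have h1 : S < s' := lt_min hlt (by linarith)
    have h2 : s' ∈ Icc (0 : ℝ) 1 := ⟨hS0.trans h1.le, min_le_left _ _⟩
    have h3 := hgood s' h2 (hsle.trans h1.le) (fun r hr => by
      apply hδρ
      rw [Real.dist_eq, abs_lt]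
      have := min_le_right (1 : ℝ) (S + δ / 2)
      constructor
      · linarith [hr.1]
      · have : r ≤ S + δ / 2 := hr.2.trans this
        linarith)
    have h4 : s' ≤ S := le_csSup hTb ⟨h2, h3⟩
    linarith
  have h1 := hgood 1 ⟨zero_le_one, le_rfl⟩ hs1 (fun r hr => by
    apply hδρ
    rw [Real.dist_eq, abs_lt]
    constructor <;> linarith [hr.1, hr.2])
  have h2 : γ 1 = z := by simp [hγ]
  rw [h2] at h1
  exact h1

/-- **monodromy on convex sets** -/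
theorem mono {𝒢 : Set ℂ → (ℂ → ℂ) → Prop} (hG : Cls 𝒢) {W : Set ℂ} (hW : IsOpen W)
    (hWc : Convex ℝ W) (hL : LocExt 𝒢 W) {f₀ : ℂ → ℂ} {t₀ : ℂ} (ht₀ : t₀ ∈ W)
    (h0 : ∃ U f, Ch 𝒢 W f₀ t₀ t₀ U f) : ∃ f, 𝒢 W f ∧ f =ᶠ[𝓝 t₀] f₀ := by
  have hall : ∀ z ∈ W, ∃ U f, Ch 𝒢 W f₀ t₀ z U f := fun z hz =>
    step_seg hG hL (hWc.segment_subset ht₀ hz) h0
  choose! U f hUf using hall
  have key : ∀ z ∈ W, ∀ z' ∈ W, ∀ x, x ∈ U z → x ∈ U z' → f z x = f z' x := by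
    intro z hz z' hz' x hx hx'
    obtain ⟨o1, c1, s1, w1, g1, e1⟩ := hUf z hz
    obtain ⟨o2, c2, s2, w2, g2, e2⟩ := hUf z' hz'
    have hd1 : AnalyticOnNhd ℂ (f z) (U z ∩ U z') :=
      ((hG.df _ _ g1).mono inter_subset_left).analyticOnNhd (o1.inter o2)
    have hd2 : AnalyticOnNhd ℂ (f z') (U z ∩ U z') :=
      ((hG.df _ _ g2).mono inter_subset_right).analyticOnNhd (o1.inter o2)
    have h1 : t₀ ∈ U z ∩ U z' := ⟨s1 (left_mem_segment ℝ _ _), s2 (left_mem_segment ℝ _ _)⟩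
    have h2 := hd1.eqOn_of_preconnected_of_eventuallyEq hd2 (c1.inter c2).isPreconnected h1
      (e1.trans e2.symm)
    exact h2 ⟨hx, hx'⟩
  have hzU : ∀ z ∈ W, z ∈ U z := fun z hz => (hUf z hz).2.2.1 (right_mem_segment ℝ _ _)
  have heq : ∀ z ∈ W, EqOn (f z) (fun x => f x x) (U z) := by
    intro z hz x hx
    have hxW : x ∈ W := (hUf z hz).2.2.2.1 hx
    exact key z hz x hxW x hx (hzU x hxW)
  have hloc : ∀ z ∈ W, 𝒢 (U z) (fun x => f x x) := fun z hz =>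
    hG.congr _ _ _ (hUf z hz).1 (hUf z hz).2.2.2.2.1 (heq z hz)
  refine ⟨fun x => f x x, ?_, ?_⟩
  · refine hG.loc W _ hW ⟨t₀, ht₀⟩ (fun z hz => ?_) (fun z hz =>
      ⟨U z, (hUf z hz).1, hzU z hz, (hUf z hz).2.2.2.1, hloc z hz⟩)
    exact ((hG.df _ _ (hloc z hz)).differentiableAt
      ((hUf z hz).1.mem_nhds (hzU z hz))).differentiableWithinAt
  · obtain ⟨o1, c1, s1, w1, g1, e1⟩ := hUf t₀ ht₀
    filter_upwards [e1, o1.mem_nhds (hzU t₀ ht₀)] with x hx hxU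
    rw [← hx]
    exact (heq t₀ ht₀ hxU).symm

end Vale.Agent.P097.H456.Edge
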