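import Vale.Agent.P097.H456.Edge.Loc

/-!
# P097 / Edge: local structure of a position, part 2 (the lift to a half plane, no escape)
-/

set_option linter.all false

open Complex Metric Filter Topology Set
open scoped ComplexConjugate

namespace Vale.Agent.P097.H456.Edge

open Vale.Agent.P097

/-- two functions with the same sixth power -/
theorem six_const {S : Set ℂ} (hS : IsOpen S) (hc : Convex ℝ S) {F G : ℂ → ℂ}
    (hF : DifferentiableOn ℂ F S) (hG : DifferentiableOn ℂ G S) (hG0 : ∀ z ∈ S, G z ≠ 0)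
    (h : ∀ z ∈ S, F z ^ 6 = G z ^ 6) {z₀ : ℂ} (hz₀ : z₀ ∈ S) :
    ∃ ω : ℂ, ω ^ 6 = 1 ∧ ∀ z ∈ S, F z = ω * G z := by
  have h6 : ∀ z ∈ S, (F z / G z) ^ 6 = 1 := by
    intro z hz
    rw [div_pow, h z hz, div_self (pow_ne_zero _ (hG0 z hz))]
  have hd : ∀ z ∈ S, HasDerivAt (fun z => F z / G z) 0 z := by
    intro z hz
    have h1 : DifferentiableAt ℂ (fun z => F z / G z) z :=
      (hF.differentiableAt (hS.mem_nhds hz)).div (hG.differentiableAt (hS.mem_nhds hz)) (hG0 z hz)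
    have h2 := (h1.hasDerivAt.pow 6)
    have h3 : (fun z => F z / G z) ^ 6 =ᶠ[𝓝 z] fun _ => (1 : ℂ) := by
      filter_upwards [hS.mem_nhds hz] with s hs using h6 s hs
    have h4 := h2.unique ((hasDerivAt_const z (1 : ℂ)).congr_of_eventuallyEq h3)
    have h5 : F z / G z ≠ 0 := by
      intro h0
      have := h6 z hz
      rw [h0] at this
      norm_num at this
    have h6' : deriv (fun z => F z / G z) z = 0 := by
      have h7 : ((6 : ℕ) : ℂ) * (F z / G z) ^ (6 - 1) ≠ 0 :=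
        mul_ne_zero (by norm_num) (pow_ne_zero _ h5)
      exact (mul_eq_zero.1 h4).resolve_left h7
    rw [← h6']
    exact h1.hasDerivAt
  refine ⟨F z₀ / G z₀, h6 z₀ hz₀, fun z hz => ?_⟩
  have := const_of_deriv hc hS hd hz hz₀
  rw [← this, div_mul_cancel₀ _ (hG0 z hz)]

/-- the lift of a position to the half plane -/
structure Lift (Φ q a pa Z pb : ℂ → ℂ) (τ : ℂ) (ρ : ℝ) (k : ℤ) (v : ℂ → ℂ) (ω : ℂ)
    (F : ℂ → ℂ) : Prop where
  ω6 : ω ^ 6 = 1
  dF : ∀ z : ℂ, z.re < Real.log ρ / 6 →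
    HasDerivAt F (ω * (6 * exp (((k : ℂ) + 6) * z) * v (Tt τ z))) z
  r1 : ∀ z : ℂ, z.re < Real.log ρ / 6 → Z (Tt τ z) = exp (I * (2 * Φ (F z) - a (Tt τ z)))
  r2 : ∀ z : ℂ, z.re < Real.log ρ / 6 → pa (Tt τ z) + pb (Tt τ z) =
    2 * q (F z) * cos (Φ (F z) - a (Tt τ z))

/-- a sixth root of `u` -/
theorem exists_v {u : ℂ → ℂ} {τ : ℂ} {ρ : ℝ} (hρ : 0 < ρ) (du : DifferentiableOn ℂ u (ball τ ρ))
    (u0 : ∀ t ∈ ball τ ρ, u t ≠ 0) : ∃ v : ℂ → ℂ, DifferentiableOn ℂ v (ball τ ρ) ∧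
      (∀ t ∈ ball τ ρ, v t ≠ 0) ∧ ∀ t ∈ ball τ ρ, v t ^ 6 = u t := by
  obtain ⟨l, hl, -, hle⟩ := H699.exists_log hρ du u0 (a := Complex.log (u τ))
    (exp_log (u0 τ (mem_ball_self hρ)))
  refine ⟨fun t => exp (l t / 6), (hl.div_const 6).cexp, fun t _ => exp_ne_zero _, fun t ht => ?_⟩
  rw [← exp_nat_mul]
  have : ((6 : ℕ) : ℂ) * (l t / 6) = l t := by push_cast; ring
  rw [this, hle t ht]

theorem exp_zk (k : ℤ) (z : ℂ) : exp (((k : ℂ) + 6) * z) ^ 6 = (6 * exp (6 * z)) ^ 6 / 6 ^ 6 *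
    (exp (6 * z)) ^ k := by
  have h1 : exp (((k : ℂ) + 6) * z) ^ 6 = exp (6 * z) ^ 6 * exp (6 * z) ^ k := by
    rw [← exp_int_mul, ← exp_nat_mul, ← exp_nat_mul, ← exp_add]
    congr 1
    push_cast; ring
  rw [h1]; ring

theorem exists_lift {Φ q a pa Z pb m : ℂ → ℂ} {τ : ℂ} {ρ : ℝ} {k kz : ℤ} {u uz v : ℂ → ℂ}
    (hΦ : Differentiable ℂ Φ) (hq : Differentiable ℂ q) (D : Pd Z pb m τ ρ k kz u uz)
    (ha : DifferentiableOn ℂ a (ball τ ρ)) (hpa : DifferentiableOn ℂ pa (ball τ ρ))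
    (dv : DifferentiableOn ℂ v (ball τ ρ)) (v0 : ∀ t ∈ ball τ ρ, v t ≠ 0)
    (v6 : ∀ t ∈ ball τ ρ, v t ^ 6 = u t) {V : Set ℂ} (hV : IsOpen V) (hVb : V ⊆ ball τ ρ)
    {θ : ℂ → ℂ} (hθ : DifferentiableOn ℂ θ V) (hR : ∀ t ∈ V, Rl Φ q a pa Z pb m θ t)
    {z₀ : ℂ} (hz₀ : Tt τ z₀ ∈ V) :
    ∃ (ω : ℂ) (F : ℂ → ℂ), Lift Φ q a pa Z pb τ ρ k v ω F ∧
      ∀ᶠ z in 𝓝 z₀, F z = θ (Tt τ z) := by
  set P : Set ℂ := {z : ℂ | z.re < Real.log ρ / 6} with hP
  have hPo : IsOpen P := isOpen_re_lt' _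
  have hPcx : Convex ℝ P := convex_re_lt _
  have hmem : ∀ z ∈ P, Tt τ z ∈ ball τ ρ := fun z hz => (Tt_mem D.ρ0).2 hz
  have hz₀P : z₀ ∈ P := (Tt_mem D.ρ0).1 (hVb hz₀)
  have hTc : Continuous (Tt τ) := by unfold Tt; fun_prop
  -- a small ball
  have hWo : IsOpen (Tt τ ⁻¹' V) := hV.preimage hTc
  obtain ⟨δ, hδ, hδW⟩ := Metric.isOpen_iff.1 (hWo.inter hPo) z₀ ⟨hz₀, hz₀P⟩
  set G : ℂ → ℂ := fun z => 6 * exp (((k : ℂ) + 6) * z) * v (Tt τ z) with hG
  have dT : DifferentiableOn ℂ (Tt τ) P := fun z _ =>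
    (hasDerivAt_Tt τ z).differentiableAt.differentiableWithinAt
  have dG : DifferentiableOn ℂ G P := by
    have h1 : DifferentiableOn ℂ (fun z : ℂ => 6 * exp (((k : ℂ) + 6) * z)) P := by fun_prop
    exact h1.mul (dv.comp dT hmem)
  have hG0 : ∀ z ∈ P, G z ≠ 0 := fun z hz =>
    mul_ne_zero (mul_ne_zero (by norm_num) (exp_ne_zero _)) (v0 _ (hmem z hz))
  have dθT : ∀ z ∈ ball z₀ δ, HasDerivAt (fun z => θ (Tt τ z))
      (deriv θ (Tt τ z) * (6 * exp (6 * z))) z := by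
    intro z hz
    have h1 : DifferentiableAt ℂ θ (Tt τ z) := hθ.differentiableAt (hV.mem_nhds (hδW hz).1)
    exact h1.hasDerivAt.comp z (hasDerivAt_Tt τ z)
  have h6 : ∀ z ∈ ball z₀ δ, (deriv θ (Tt τ z) * (6 * exp (6 * z))) ^ 6 = G z ^ 6 := by
    intro z hz
    have h1 := (hR _ (hδW hz).1).r6
    have h2 := D.mu _ (hmem z (hδW hz).2) (Tt_ne τ z)
    rw [Tt_sub] at h2
    rw [mul_pow, h1, h2, hG]
    simp only
    rw [mul_pow (6 * exp (((k : ℂ) + 6) * z)) (v (Tt τ z)), mul_pow 6 (exp (((k : ℂ) + 6) * z)),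
      v6 _ (hmem z (hδW hz).2), exp_zk]
    ring
  have dθT' : DifferentiableOn ℂ (fun z => deriv θ (Tt τ z) * (6 * exp (6 * z))) (ball z₀ δ) := by
    have h1 : DifferentiableOn ℂ (deriv θ) V := hθ.deriv hV
    have h2 : DifferentiableOn ℂ (fun z => deriv θ (Tt τ z)) (ball z₀ δ) :=
      h1.comp (dT.mono fun z hz => (hδW hz).2) (fun z hz => (hδW hz).1)
    exact h2.mul (by fun_prop)
  obtain ⟨ω, hω, hωe⟩ := six_const isOpen_ball (convex_ball z₀ δ) dθT'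
    (dG.mono fun z hz => (hδW hz).2) (fun z hz => hG0 z (hδW hz).2) h6 (mem_ball_self hδ)
  obtain ⟨F₀, hF₀⟩ := H202.prim_convex hPo hPcx (dG.const_mul ω)
  set F : ℂ → ℂ := fun z => F₀ z - F₀ z₀ + θ (Tt τ z₀) with hF
  have hFd : ∀ z ∈ P, HasDerivAt F (ω * G z) z := fun z hz =>
    ((hF₀ z hz).sub_const _).add_const _
  have hFe : ∀ z ∈ ball z₀ δ, F z = θ (Tt τ z) := by
    intro z hz
    have h1 := const_of_deriv (convex_ball z₀ δ) isOpen_ball
      (f := fun z => F z - θ (Tt τ z)) (fun s hs => by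
        have h2 := (hFd s (hδW hs).2).sub (dθT s hs)
        rw [hωe s hs, sub_self] at h2
        exact h2) hz (mem_ball_self hδ)
    have h3 : F z₀ = θ (Tt τ z₀) := by rw [hF]; simp
    simp only [h3, sub_self] at h1
    exact sub_eq_zero.1 h1
  have hFev : ∀ᶠ z in 𝓝 z₀, F z = θ (Tt τ z) := by
    filter_upwards [isOpen_ball.mem_nhds (mem_ball_self hδ)] with z hz using hFe z hz
  have hFD : DifferentiableOn ℂ F P := fun z hz =>
    (hFd z hz).differentiableAt.differentiableWithinAt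
  have h5 := step5 hΦ hq D ha hpa hFD hz₀P
    (by
      filter_upwards [isOpen_ball.mem_nhds (mem_ball_self hδ)] with z hz
      rw [hFe z hz]; exact (hR _ (hδW hz).1).r1)
    (by
      filter_upwards [isOpen_ball.mem_nhds (mem_ball_self hδ)] with z hz
      rw [hFe z hz]; exact (hR _ (hδW hz).1).r2)
  exact ⟨ω, F, ⟨hω, hFd, fun z hz => (h5 z hz).1, fun z hz => (h5 z hz).2⟩, hFev⟩

/-- **no escape**: the exponent is at least `-5` -/
theorem Lift.le {Φ q a pa Z pb m : ℂ → ℂ} {c τ : ℂ} {ρ : ℝ} {k kz : ℤ} {u uz v : ℂ → ℂ} {ω : ℂ}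
    {F : ℂ → ℂ} (E : Ent Φ q c) (D : Pd Z pb m τ ρ k kz u uz)
    (ha : DifferentiableOn ℂ a (ball τ ρ)) (dv : DifferentiableOn ℂ v (ball τ ρ))
    (v0 : ∀ t ∈ ball τ ρ, v t ≠ 0) (L : Lift Φ q a pa Z pb τ ρ k v ω F) : -5 ≤ k := by
  by_contra hk
  push Not at hk
  obtain ⟨N, hN⟩ : ∃ N : ℕ, (N : ℤ) = -(k + 6) := ⟨(-(k + 6)).toNat, Int.toNat_of_nonneg (by omega)⟩
  have hNC : ((k : ℂ) + 6) = -(N : ℂ) := by
    have : (k : ℤ) + 6 = -(N : ℤ) := by omega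
    have h2 : ((k + 6 : ℤ) : ℂ) = ((-(N : ℤ) : ℤ) : ℂ) := by rw [this]
    push_cast at h2
    exact h2
  have hω0 : ω ≠ 0 := by
    intro h
    have := L.ω6
    rw [h] at this; norm_num at this
  have hρ := D.ρ0
  have hτ : τ ∈ ball τ ρ := mem_ball_self hρ
  set u1 : ℂ → ℂ := fun s => ω * (6 * v (τ + s ^ 6)) with hu1
  have hva : AnalyticAt ℂ v τ := dv.analyticAt (isOpen_ball.mem_nhds hτ)
  have hu1a : AnalyticAt ℂ u1 0 := by
    have h1 : AnalyticAt ℂ (fun s : ℂ => τ + s ^ 6) 0 := by fun_prop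
    have h2 : AnalyticAt ℂ v ((fun s : ℂ => τ + s ^ 6) 0) := by
      have e : (fun s : ℂ => τ + s ^ 6) 0 = τ := by simp
      rw [e]; exact hva
    have h3 : AnalyticAt ℂ (v ∘ fun s : ℂ => τ + s ^ 6) 0 := AnalyticAt.comp (g := v) h2 h1
    exact analyticAt_const.mul (analyticAt_const.mul h3)
  have hu10 : u1 0 ≠ 0 := by
    simp only [hu1, ne_eq, OfNat.ofNat_ne_zero, not_false_eq_true, zero_pow, add_zero]
    exact mul_ne_zero hω0 (mul_ne_zero (by norm_num) (v0 τ hτ))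
  have hder : ∀ z : ℂ, z.re < Real.log ρ / 6 → ω * (6 * exp (((k : ℂ) + 6) * z) * v (Tt τ z)) =
      exp (-(N : ℂ) * z) * u1 (exp z) := by
    intro z hz
    rw [hNC, hu1]
    have : exp (6 * z) = exp z ^ 6 := by
      rw [← exp_nat_mul]; norm_num
    simp only [Tt, this]
    ring
  -- logarithmic derivative of `Z`
  set W : ℂ → ℂ := fun t => deriv uz t / uz t + I * deriv a t with hW
  have hlog : ∀ z : ℂ, z.re < Real.log ρ / 6 →
      2 * I * deriv Φ (F z) * (exp (-(N : ℂ) * z) * u1 (exp z)) =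
        6 * kz + 6 * exp (6 * z) * W (Tt τ z) := by
    intro z hz
    have hm : Tt τ z ∈ ball τ ρ := (Tt_mem hρ).2 hz
    have hT := hasDerivAt_Tt τ z
    have huz : HasDerivAt uz (deriv uz (Tt τ z)) (Tt τ z) :=
      (D.duz.differentiableAt (isOpen_ball.mem_nhds hm)).hasDerivAt
    have haz : HasDerivAt a (deriv a (Tt τ z)) (Tt τ z) :=
      (ha.differentiableAt (isOpen_ball.mem_nhds hm)).hasDerivAt
    have hFz := L.dF z hz
    rw [hder z hz] at hFz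
    have hΦF : HasDerivAt (fun z => Φ (F z)) (deriv Φ (F z) * (exp (-(N : ℂ) * z) * u1 (exp z))) z :=
      (E.dΦ (F z)).hasDerivAt.comp z hFz
    -- the constant function
    have h1 : HasDerivAt (fun z => exp ((6 * kz : ℂ) * z)) (exp ((6 * kz : ℂ) * z) * (6 * kz)) z := by
      have := ((hasDerivAt_id z).const_mul (6 * kz : ℂ)).cexp
      rw [mul_one] at this
      exact this
    have h2 : HasDerivAt (fun z => uz (Tt τ z)) (deriv uz (Tt τ z) * (6 * exp (6 * z))) z :=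
      huz.comp z hT
    have h3 : HasDerivAt (fun z => exp (-(I * (2 * Φ (F z) - a (Tt τ z)))))
        (exp (-(I * (2 * Φ (F z) - a (Tt τ z)))) * (-(I * (2 * (deriv Φ (F z) *
          (exp (-(N : ℂ) * z) * u1 (exp z))) - deriv a (Tt τ z) * (6 * exp (6 * z)))))) z :=
      ((((hΦF.const_mul 2).sub (haz.comp z hT)).const_mul I).neg).cexp
    have h4 := (h1.mul h2).mul h3
    have h5 : (fun z => exp ((6 * kz : ℂ) * z)) * (fun z => uz (Tt τ z)) *
        (fun z => exp (-(I * (2 * Φ (F z) - a (Tt τ z))))) =ᶠ[𝓝 z] fun _ => (1 : ℂ) := by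
      filter_upwards [(isOpen_re_lt' (Real.log ρ / 6)).mem_nhds hz] with s hs
      have hs' : s.re < Real.log ρ / 6 := hs
      have e1 := L.r1 s hs'
      have e2 := D.Zu _ ((Tt_mem hρ).2 hs') (Tt_ne τ s)
      rw [Tt_sub] at e2
      show exp ((6 * kz : ℂ) * s) * uz (Tt τ s) * exp (-(I * (2 * Φ (F s) - a (Tt τ s)))) = 1
      have e3 : exp (6 * s) ^ kz = exp ((6 * kz : ℂ) * s) := by
        rw [← exp_int_mul]; congr 1; ring
      rw [← e3, ← e2, e1, ← exp_add, add_neg_cancel, exp_zero]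
    have h6 := h4.unique ((hasDerivAt_const z (1 : ℂ)).congr_of_eventuallyEq h5)
    have h7 := h5.self_of_nhds
    change exp ((6 * kz : ℂ) * z) * uz (Tt τ z) * exp (-(I * (2 * Φ (F z) - a (Tt τ z)))) = 1 at h7
    have h8 : uz (Tt τ z) ≠ 0 := D.uz0 _ hm
    have h9 : exp ((6 * kz : ℂ) * z) ≠ 0 := exp_ne_zero _
    have h10 : exp (-(I * (2 * Φ (F z) - a (Tt τ z)))) ≠ 0 := exp_ne_zero _
    simp only [Pi.mul_apply] at h6
    set A := exp ((6 * kz : ℂ) * z) with hA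
    set B := exp (-(I * (2 * Φ (F z) - a (Tt τ z)))) with hB
    set X := exp (-(N : ℂ) * z) * u1 (exp z) with hX
    have h11 : A * uz (Tt τ z) * B * (6 * kz + 6 * exp (6 * z) * (deriv uz (Tt τ z) / uz (Tt τ z)) -
        I * (2 * (deriv Φ (F z) * X) - deriv a (Tt τ z) * (6 * exp (6 * z)))) = 0 := by
      rw [← h6]
      field_simp
      ring
    rw [h7, one_mul] at h11
    rw [hW]
    linear_combination -h11
  -- bounds near `-∞`
  have hWc : ContinuousAt W τ := by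
    have h1 : AnalyticAt ℂ uz τ := D.duz.analyticAt (isOpen_ball.mem_nhds hτ)
    have h2 : AnalyticAt ℂ a τ := ha.analyticAt (isOpen_ball.mem_nhds hτ)
    exact (h1.deriv.div h1 (D.uz0 τ hτ)).continuousAt.add
      (continuousAt_const.mul h2.deriv.continuousAt)
  obtain ⟨C, hC⟩ : ∃ C : ℝ, ∀ᶠ t in 𝓝 τ, ‖W t‖ ≤ C := by
    refine ⟨‖W τ‖ + 1, ?_⟩
    exact (hWc.norm.tendsto.eventually (gt_mem_nhds (by linarith : ‖W τ‖ < ‖W τ‖ + 1))).mono
      fun t ht => ht.le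
  have hC0 : 0 ≤ C := (norm_nonneg _).trans (hC.self_of_nhds)
  obtain ⟨ε, hε, hεC⟩ := Metric.eventually_nhds_iff_ball.1 hC
  have hu1n : ∀ᶠ s in 𝓝 (0 : ℂ), ‖u1 0‖ / 2 ≤ ‖u1 s‖ := by
    have h1 : 0 < ‖u1 0‖ := norm_pos_iff.2 hu10
    exact (hu1a.continuousAt.norm.tendsto.eventually
      (lt_mem_nhds (by linarith : ‖u1 0‖ / 2 < ‖u1 0‖))).mono fun t ht => ht.le
  obtain ⟨η, hη, hηu⟩ := Metric.eventually_nhds_iff_ball.1 hu1n
  set K : ℝ := max 0 (max (-(Real.log ρ / 6)) (max (-(Real.log ε / 6)) (-(Real.log η)))) with hK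
  have hK0 : 0 ≤ K := le_max_left _ _
  have hK1 : -(Real.log ρ / 6) ≤ K := (le_max_left _ _).trans (le_max_right _ _)
  have hK2 : -(Real.log ε / 6) ≤ K :=
    (le_max_left _ _).trans ((le_max_right _ _).trans (le_max_right _ _))
  have hK3 : -(Real.log η) ≤ K :=
    (le_max_right _ _).trans ((le_max_right _ _).trans (le_max_right _ _))
  have hpos : 0 < ‖u1 0‖ := norm_pos_iff.2 hu10
  refine E.nc (esc (g := deriv Φ) (θ := F) (u := u1) (N := N) (K := K)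
    (B := (6 * |(kz : ℝ)| + 6 * C) / ‖u1 0‖) ?_ E.per E.cj hu1a hu10 ?_ ?_)
  · exact differentiableOn_univ.1 (E.dΦ.differentiableOn.deriv isOpen_univ)
  · intro z hz
    have h1 := L.dF z (by linarith)
    rwa [hder z (by linarith)] at h1
  · intro z hz
    have hz1 : z.re < Real.log ρ / 6 := by linarith
    have h1 := hlog z hz1
    have hTε : Tt τ z ∈ ball τ ε := (Tt_mem hε).2 (by linarith)
    have hWb := hεC _ hTε
    have hη' : exp z ∈ ball (0 : ℂ) η := by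
      rw [mem_ball_zero_iff, Complex.norm_exp, ← Real.lt_log_iff_exp_lt hη]; linarith
    have hub := hηu _ hη'
    have he1 : 1 ≤ ‖exp (-(N : ℂ) * z)‖ := by
      rw [Complex.norm_exp, Real.one_le_exp_iff]
      have : (-(N : ℂ) * z).re = -(N : ℝ) * z.re := by simp
      rw [this]
      have h2 : (0 : ℝ) ≤ N := Nat.cast_nonneg N
      nlinarith
    have he2 : ‖exp (6 * z)‖ ≤ 1 := by
      rw [Complex.norm_exp, Real.exp_le_one_iff]
      have : (6 * z).re = 6 * z.re := by simp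
      rw [this]; linarith
    have h2 : ‖2 * I * deriv Φ (F z) * (exp (-(N : ℂ) * z) * u1 (exp z))‖ ≤
        6 * |(kz : ℝ)| + 6 * C := by
      rw [h1]
      refine (norm_add_le _ _).trans (add_le_add ?_ ?_)
      · rw [norm_mul]
        have h3 : ‖(kz : ℂ)‖ = |(kz : ℝ)| := by
          rw [Complex.norm_intCast]
        rw [h3]; norm_num
      · rw [norm_mul, norm_mul]
        have h3 : ‖(6 : ℂ)‖ = 6 := by norm_num
        rw [h3]
        have h4 : ‖exp (6 * z)‖ * ‖W (Tt τ z)‖ ≤ 1 * C :=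
          mul_le_mul he2 hWb (norm_nonneg _) zero_le_one
        linarith
    rw [norm_mul, norm_mul, norm_mul, norm_mul] at h2
    have h3 : ‖(2 : ℂ)‖ = 2 := by norm_num
    rw [h3, Complex.norm_I] at h2
    rw [le_div_iff₀ hpos]
    have h4 : ‖deriv Φ (F z)‖ * (‖u1 0‖ / 2) ≤
        ‖deriv Φ (F z)‖ * (‖exp (-(N : ℂ) * z)‖ * ‖u1 (exp z)‖) := by
      refine mul_le_mul_of_nonneg_left ?_ (norm_nonneg _)
      calc ‖u1 0‖ / 2 = 1 * (‖u1 0‖ / 2) := (one_mul _).symm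
        _ ≤ _ := mul_le_mul he1 hub (by positivity) (by positivity)
    linarith

end Vale.Agent.P097.H456.Edge
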