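import Vale.Agent.P097.H456.Edge.M6

/-!
# P097 / Edge: the slice lemma

`B` open preconnected, `a`, `pa` holomorphic, `Z`, `pb` meromorphic on `B`; a position `θ₀` on a
small open set with `Z = exp (i (2 Φ θ - a))`, `pa + pb = 2 q(θ) cos (Φ θ - a)`.  Then positions
exist near every point of `B`, and `Z`, `pb` have removable singularities, `Z ≠ 0`.
-/

set_option linter.all false

open Complex Metric Filter Topology Set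
open scoped ComplexConjugate

namespace Vale.Agent.P097.H456.Edge

open Vale.Agent.P097

/-- a position near `τ` -/
structure PosAt (Φ q : ℂ → ℂ) (c : ℂ) (a pa Z pb : ℂ → ℂ) (B : Set ℂ) (τ : ℂ) (ρ : ℝ)
    (θ : ℂ → ℂ) : Prop where
  ρ0 : 0 < ρ
  sub : ball τ ρ ⊆ B
  dθ : DifferentiableOn ℂ θ (ball τ ρ)
  rl : ∀ t ∈ ball τ ρ, t ≠ τ → Rl Φ q a pa Z pb (M6 c a pa Z pb) θ t
  cs : ∃ t ∈ ball τ ρ, cos (Φ (θ t) - a t) ≠ 0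
  dn : ∃ t ∈ ball τ ρ, deriv θ t ≠ 0

/-- in a ball, an analytic function which is not identically zero is nonzero at a point of any
smaller ball, different from a given point -/
theorem exists_ne_small {f : ℂ → ℂ} {τ : ℂ} {ρ : ℝ} (hf : DifferentiableOn ℂ f (ball τ ρ))
    (h : ∃ t ∈ ball τ ρ, f t ≠ 0) {τ' : ℂ} {ρ' : ℝ} (hρ' : 0 < ρ') (hs : ball τ' ρ' ⊆ ball τ ρ) :
    ∃ t ∈ ball τ' ρ', f t ≠ 0 := by
  by_contra hcon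
  push Not at hcon
  obtain ⟨t, ht, hft⟩ := h
  have h1 := (hf.analyticOnNhd isOpen_ball).eqOn_zero_of_preconnected_of_eventuallyEq_zero
    (convex_ball τ ρ).isPreconnected (hs (mem_ball_self hρ')) (by
      filter_upwards [isOpen_ball.mem_nhds (mem_ball_self hρ')] with s hs' using hcon s hs')
  exact hft (h1 ht)

/-- two nonvanishing conditions at the same point -/
theorem exists_ne_small2 {f g : ℂ → ℂ} {τ : ℂ} {ρ : ℝ} (hf : DifferentiableOn ℂ f (ball τ ρ))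
    (hg : DifferentiableOn ℂ g (ball τ ρ)) (h : ∃ t ∈ ball τ ρ, f t ≠ 0)
    (h' : ∃ t ∈ ball τ ρ, g t ≠ 0) {τ' : ℂ} {ρ' : ℝ} (hρ' : 0 < ρ')
    (hs : ball τ' ρ' ⊆ ball τ ρ) : ∃ t ∈ ball τ' ρ', f t ≠ 0 ∧ g t ≠ 0 := by
  obtain ⟨t, ht, hft⟩ := exists_ne_small hf h hρ' hs
  -- a ball around `t` where `f ≠ 0`
  have h1 : ∀ᶠ s in 𝓝 t, f s ≠ 0 ∧ s ∈ ball τ' ρ' :=
    ((hf.differentiableAt (isOpen_ball.mem_nhds (hs ht))).continuousAt.eventually_ne hft).and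
      (isOpen_ball.mem_nhds ht)
  obtain ⟨r, hr, hrb⟩ := Metric.eventually_nhds_iff_ball.1 h1
  obtain ⟨s, hs', hgs⟩ := exists_ne_small hg h' hr
    (fun x hx => hs (hrb x hx).2)
  exact ⟨s, (hrb s hs').2, (hrb s hs').1, hgs⟩

section

variable {Φ q a pa Z pb : ℂ → ℂ} {c : ℂ} {B : Set ℂ}

theorem PosAt.cosd (E : Ent Φ q c) (ha : DifferentiableOn ℂ a B) {τ : ℂ} {ρ : ℝ} {θ : ℂ → ℂ}
    (P : PosAt Φ q c a pa Z pb B τ ρ θ) :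
    DifferentiableOn ℂ (fun t => cos (Φ (θ t) - a t)) (ball τ ρ) :=
  ((E.dΦ.comp_differentiableOn P.dθ).sub (ha.mono P.sub)).ccos

/-- restriction to a smaller ball not containing the centre -/
theorem PosAt.move (E : Ent Φ q c) (ha : DifferentiableOn ℂ a B) {τ : ℂ} {ρ : ℝ} {θ : ℂ → ℂ}
    (P : PosAt Φ q c a pa Z pb B τ ρ θ) {τ' : ℂ} {ρ' : ℝ} (hρ' : 0 < ρ')
    (hs : ball τ' ρ' ⊆ ball τ ρ) (hn : ∀ t ∈ ball τ' ρ', t ≠ τ' → t ≠ τ) :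
    PosAt Φ q c a pa Z pb B τ' ρ' θ :=
  ⟨hρ', hs.trans P.sub, P.dθ.mono hs, fun t ht hne => P.rl t (hs ht) (hn t ht hne),
    exists_ne_small (P.cosd E ha) P.cs hρ' hs,
    exists_ne_small (P.dθ.deriv isOpen_ball) P.dn hρ' hs⟩

/-- openness -/
theorem PosAt.open (E : Ent Φ q c) (ha : DifferentiableOn ℂ a B) {τ : ℂ} {ρ : ℝ} {θ : ℂ → ℂ}
    (P : PosAt Φ q c a pa Z pb B τ ρ θ) {τ' : ℂ} (h : τ' ∈ ball τ ρ) :
    ∃ ρ', PosAt Φ q c a pa Z pb B τ' ρ' θ := by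
  by_cases hne : τ' = τ
  · subst hne; exact ⟨ρ, P⟩
  · have h1 : ∀ᶠ t in 𝓝 τ', t ∈ ball τ ρ ∧ t ≠ τ :=
      Filter.inter_mem (isOpen_ball.mem_nhds h) (isOpen_ne.mem_nhds hne)
    obtain ⟨r, hr, hrb⟩ := Metric.eventually_nhds_iff_ball.1 h1
    exact ⟨r, P.move E ha hr (fun t ht => (hrb t ht).1) (fun t ht _ => (hrb t ht).2)⟩

/-- **local extension**, in terms of `PosAt` -/
theorem ext_pos (E : Ent Φ q c) (hB : IsOpen B) (ha : DifferentiableOn ℂ a B)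
    (hpa : DifferentiableOn ℂ pa B) (mZ : ∀ t ∈ B, MeromorphicAt Z t)
    (mpb : ∀ t ∈ B, MeromorphicAt pb t) {τ : ℂ} (hτ : τ ∈ B) :
    ∃ ρ > 0, ball τ ρ ⊆ B ∧ ∀ (V : Set ℂ) (θ₀ : ℂ → ℂ), IsOpen V → IsPreconnected V →
      V ⊆ ball τ ρ → DifferentiableOn ℂ θ₀ V →
      (∀ t ∈ V, Rl Φ q a pa Z pb (M6 c a pa Z pb) θ₀ t) →
      (∃ t ∈ V, cos (Φ (θ₀ t) - a t) ≠ 0) → (∃ t ∈ V, deriv θ₀ t ≠ 0) →
      ∃ θ : ℂ → ℂ, (∀ t ∈ V, θ t = θ₀ t) ∧ PosAt Φ q c a pa Z pb B τ ρ θ := by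
  obtain ⟨r, hr, hrB⟩ := Metric.isOpen_iff.1 hB τ hτ
  obtain ⟨ρ, hρ, hρr, hext⟩ := local_ext E hr (ha.mono hrB) (hpa.mono hrB) (mZ τ hτ) (mpb τ hτ)
    (mero_M6 (c := c) (ha.analyticAt (hB.mem_nhds hτ)) (hpa.analyticAt (hB.mem_nhds hτ))
      (mZ τ hτ) (mpb τ hτ))
  have hsub : ball τ ρ ⊆ B := (ball_subset_ball hρr).trans hrB
  refine ⟨ρ, hρ, hsub, fun V θ₀ hV hVc hVb hθ hR hcs hdn => ?_⟩
  obtain ⟨θ, hθd, hθe, hθR⟩ := hext V θ₀ hV hVc hVb hθ hR hcs hdn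
  refine ⟨θ, hθe, ⟨hρ, hsub, hθd, hθR, ?_, ?_⟩⟩
  · obtain ⟨t, ht, h⟩ := hcs
    exact ⟨t, hVb ht, by rw [hθe t ht]; exact h⟩
  · obtain ⟨t, ht, h⟩ := hdn
    refine ⟨t, hVb ht, ?_⟩
    have : θ =ᶠ[𝓝 t] θ₀ := by
      filter_upwards [hV.mem_nhds ht] with s hs using hθe s hs
    rw [this.deriv_eq]; exact h

/-- closedness -/
theorem PosAt.closed (E : Ent Φ q c) (hB : IsOpen B) (ha : DifferentiableOn ℂ a B)
    (hpa : DifferentiableOn ℂ pa B) (mZ : ∀ t ∈ B, MeromorphicAt Z t)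
    (mpb : ∀ t ∈ B, MeromorphicAt pb t) {τ : ℂ} (hτ : τ ∈ B)
    (h : τ ∈ closure {x | ∃ ρ θ, PosAt Φ q c a pa Z pb B x ρ θ}) :
    ∃ ρ θ, PosAt Φ q c a pa Z pb B τ ρ θ := by
  obtain ⟨ρ, hρ, hsub, hext⟩ := ext_pos (c := c) E hB ha hpa mZ mpb hτ
  obtain ⟨x, ⟨ρ₁, θ₁, P⟩, hx⟩ := Metric.mem_closure_iff.1 h ρ hρ
  -- a small ball near `x`, not containing `x`
  have hxb : x ∈ ball τ ρ := by rw [mem_ball, dist_comm]; exact hx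
  have h1 : ∀ᶠ t in 𝓝 x, t ∈ ball τ ρ ∧ t ∈ ball x ρ₁ :=
    Filter.inter_mem (isOpen_ball.mem_nhds hxb) (isOpen_ball.mem_nhds (mem_ball_self P.ρ0))
  obtain ⟨r, hr, hrb⟩ := Metric.eventually_nhds_iff_ball.1 h1
  obtain ⟨y, hy, hyc, hyd⟩ := exists_ne_small2 (P.cosd E ha) (P.dθ.deriv isOpen_ball) P.cs P.dn hr
    (fun t ht => (hrb t ht).2)
  -- move off `x`
  obtain ⟨y', hy', hne, hyc'⟩ : ∃ y' ∈ ball x r, y' ≠ x ∧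
      cos (Φ (θ₁ y') - a y') * deriv θ₁ y' ≠ 0 := by
    have hcon : ContinuousOn (fun t => cos (Φ (θ₁ t) - a t) * deriv θ₁ t) (ball x r) :=
      (((P.cosd E ha).mul (P.dθ.deriv isOpen_ball)).mono (fun t ht => (hrb t ht).2)).continuousOn
    exact exists_ne_of_open isOpen_ball hcon hy (mul_ne_zero hyc hyd) x
  have h2 : ∀ᶠ t in 𝓝 y', t ∈ ball x r ∧ t ≠ x :=
    Filter.inter_mem (isOpen_ball.mem_nhds hy') (isOpen_ne.mem_nhds hne)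
  obtain ⟨r', hr', hrb'⟩ := Metric.eventually_nhds_iff_ball.1 h2
  obtain ⟨θ, -, P'⟩ := hext (ball y' r') θ₁ isOpen_ball (convex_ball y' r').isPreconnected
    (fun t ht => (hrb t (hrb' t ht).1).1) (P.dθ.mono fun t ht => (hrb t (hrb' t ht).1).2)
    (fun t ht => P.rl t (hrb t (hrb' t ht).1).2 (hrb' t ht).2)
    ⟨y', mem_ball_self hr', (mul_ne_zero_iff.1 hyc').1⟩
    ⟨y', mem_ball_self hr', (mul_ne_zero_iff.1 hyc').2⟩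
  exact ⟨ρ, θ, P'⟩

/-- **propagation of positions** -/
theorem pos_all (E : Ent Φ q c) (hB : IsOpen B) (hBc : IsPreconnected B)
    (ha : DifferentiableOn ℂ a B) (hpa : DifferentiableOn ℂ pa B)
    (mZ : ∀ t ∈ B, MeromorphicAt Z t) (mpb : ∀ t ∈ B, MeromorphicAt pb t)
    (h : ∃ x ρ θ, PosAt Φ q c a pa Z pb B x ρ θ) {τ : ℂ} (hτ : τ ∈ B) :
    ∃ ρ θ, PosAt Φ q c a pa Z pb B τ ρ θ := by
  set U : Set ℂ := {x | ∃ ρ θ, PosAt Φ q c a pa Z pb B x ρ θ} with hU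
  have hUo : IsOpen U := by
    rw [Metric.isOpen_iff]
    rintro x ⟨ρ, θ, P⟩
    refine ⟨ρ, P.ρ0, fun y hy => ?_⟩
    obtain ⟨ρ', P'⟩ := P.open E ha hy
    exact ⟨ρ', θ, P'⟩
  obtain ⟨x, ρ, θ, P⟩ := h
  have hsub : B ⊆ U := hBc.subset_of_closure_inter_subset hUo
    ⟨x, P.sub (mem_ball_self P.ρ0), ⟨ρ, θ, P⟩⟩
    (fun y hy => PosAt.closed E hB ha hpa mZ mpb hy.2 hy.1)
  exact hsub hτ

/-- a first position -/
theorem pos_first (E : Ent Φ q c) (hB : IsOpen B) (ha : DifferentiableOn ℂ a B)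
    (hpa : DifferentiableOn ℂ pa B) {V : Set ℂ} (hV : IsOpen V) (hVB : V ⊆ B) {θ₀ : ℂ → ℂ}
    (hθ : DifferentiableOn ℂ θ₀ V) (r1 : ∀ t ∈ V, Z t = exp (I * (2 * Φ (θ₀ t) - a t)))
    (r2 : ∀ t ∈ V, pa t + pb t = 2 * q (θ₀ t) * cos (Φ (θ₀ t) - a t))
    (hn : ∃ t ∈ V, cos (Φ (θ₀ t) - a t) ≠ 0 ∧ q (θ₀ t) ≠ 0 ∧ deriv θ₀ t ≠ 0) :
    ∃ x ρ, ball x ρ ⊆ V ∧ (∀ t ∈ ball x ρ, Rl Φ q a pa Z pb (M6 c a pa Z pb) θ₀ t) ∧
      PosAt Φ q c a pa Z pb B x ρ θ₀ := by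
  obtain ⟨x, hx, h1, h2, h3⟩ := hn
  have dc : ContinuousOn (fun t => cos (Φ (θ₀ t) - a t)) V :=
    ((E.dΦ.comp_differentiableOn hθ).sub (ha.mono hVB)).ccos.continuousOn
  have dq : ContinuousOn (fun t => q (θ₀ t)) V := (E.dq.comp_differentiableOn hθ).continuousOn
  have hev : ∀ᶠ t in 𝓝 x, t ∈ V ∧ cos (Φ (θ₀ t) - a t) ≠ 0 ∧ q (θ₀ t) ≠ 0 := by
    filter_upwards [hV.mem_nhds hx, (dc.continuousAt (hV.mem_nhds hx)).eventually_ne h1,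
      (dq.continuousAt (hV.mem_nhds hx)).eventually_ne h2] with t a b c using ⟨a, b, c⟩
  obtain ⟨r, hr, hrb⟩ := Metric.eventually_nhds_iff_ball.1 hev
  have hrV : ball x r ⊆ V := fun t ht => (hrb t ht).1
  have h6 := r6_of (Z := Z) (pb := pb) E isOpen_ball (ha.mono (hrV.trans hVB))
    (hpa.mono (hrV.trans hVB)) (hθ.mono hrV) (fun t ht => r1 t (hrV ht))
    (fun t ht => r2 t (hrV ht)) (fun t ht => (hrb t ht).2.1) (fun t ht => (hrb t ht).2.2)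
  have hRl : ∀ t ∈ ball x r, Rl Φ q a pa Z pb (M6 c a pa Z pb) θ₀ t :=
    fun t ht => ⟨r1 t (hrV ht), r2 t (hrV ht), h6 t ht⟩
  exact ⟨x, r, hrV, hRl, hr, hrV.trans hVB, hθ.mono hrV, fun t ht _ => hRl t ht,
    ⟨x, mem_ball_self hr, h1⟩, ⟨x, mem_ball_self hr, h3⟩⟩

/-- **THE SLICE LEMMA** -/
theorem slice (E : Ent Φ q c) (hB : IsOpen B) (hBc : IsPreconnected B)
    (ha : DifferentiableOn ℂ a B) (hpa : DifferentiableOn ℂ pa B)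
    (mZ : ∀ t ∈ B, MeromorphicAt Z t) (mpb : ∀ t ∈ B, MeromorphicAt pb t)
    {V : Set ℂ} (hV : IsOpen V) (hVB : V ⊆ B) {θ₀ : ℂ → ℂ}
    (hθ : DifferentiableOn ℂ θ₀ V) (r1 : ∀ t ∈ V, Z t = exp (I * (2 * Φ (θ₀ t) - a t)))
    (r2 : ∀ t ∈ V, pa t + pb t = 2 * q (θ₀ t) * cos (Φ (θ₀ t) - a t))
    (hn : ∃ t ∈ V, cos (Φ (θ₀ t) - a t) ≠ 0 ∧ q (θ₀ t) ≠ 0 ∧ deriv θ₀ t ≠ 0)
    {τ : ℂ} (hτ : τ ∈ B) :
    ∃ ρ > 0, ball τ ρ ⊆ B ∧ ∃ b p' : ℂ → ℂ, DifferentiableOn ℂ b (ball τ ρ) ∧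
      DifferentiableOn ℂ p' (ball τ ρ) ∧ ∀ t ∈ ball τ ρ, t ≠ τ → Z t = exp (I * b t) ∧
        pb t = p' t := by
  obtain ⟨x, r, -, -, P₀⟩ := pos_first (c := c) E hB ha hpa hV hVB hθ r1 r2 hn
  obtain ⟨ρ, θ, P⟩ := pos_all E hB hBc ha hpa mZ mpb ⟨x, r, θ₀, P₀⟩ hτ
  refine ⟨ρ, P.ρ0, P.sub, fun t => 2 * Φ (θ t) - a t,
    fun t => 2 * q (θ t) * cos (Φ (θ t) - a t) - pa t, ?_, ?_, fun t ht hne => ?_⟩
  · exact ((E.dΦ.comp_differentiableOn P.dθ).const_mul 2).sub (ha.mono P.sub)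
  · exact (((E.dq.comp_differentiableOn P.dθ).const_mul 2).mul (P.cosd E ha)).sub (hpa.mono P.sub)
  · have h := P.rl t ht hne
    exact ⟨h.r1, by linear_combination h.r2⟩

end

end Vale.Agent.P097.H456.Edge
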