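import Mathlib

/-!
# P097 / Edge: a position cannot escape to infinity

`g` entire, 1-periodic, `‖g (conj x)‖ = ‖g x‖`.  If `θ` is a function on a left half plane with
`θ' z = exp (- N z) u (exp z)`, `u 0 ≠ 0`, `N ≥ 0`, and `g ∘ θ` is bounded, then `g` is constant.
-/

set_option linter.all false

open Complex Metric Filter Topology Set
open scoped ComplexConjugate

namespace Vale.Agent.P097.H456.Edge

/-- constant derivative difference on a convex set -/
theorem const_of_deriv {S : Set ℂ} (hS : Convex ℝ S) (hO : IsOpen S) {f : ℂ → ℂ}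
    (hf : ∀ z ∈ S, HasDerivAt f 0 z) {x y : ℂ} (hx : x ∈ S) (hy : y ∈ S) : f x = f y :=
  hS.is_const_of_fderivWithin_eq_zero (𝕜 := ℂ)
    (fun z hz => (hf z hz).differentiableAt.differentiableWithinAt)
    (fun z hz => by
      rw [fderivWithin_of_isOpen hO hz]
      rw [(hf z hz).hasFDerivAt.fderiv]; ext; simp) hx hy

theorem const_of_bdd {g : ℂ → ℂ} (hg : Differentiable ℂ g) {B : ℝ} (hB : ∀ x, ‖g x‖ ≤ B) :
    ∀ x y, g x = g y :=
  fun x y => hg.apply_eq_apply_of_bounded
    (isBounded_iff_forall_norm_le.2 ⟨B, by rintro _ ⟨z, rfl⟩; exact hB z⟩) x y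

theorem per_int {g : ℂ → ℂ} (hp : ∀ x, g (x + 1) = g x) (x : ℂ) (k : ℤ) : g (x + k) = g x := by
  have h : Function.Periodic g (1 : ℂ) := hp
  have := h.int_mul k x
  simpa using this

theorem convex_re_lt (K : ℝ) : Convex ℝ {z : ℂ | z.re < K} := convex_halfSpace_re_lt K
theorem isOpen_re_lt' (K : ℝ) : IsOpen {z : ℂ | z.re < K} := isOpen_lt continuous_re continuous_const
theorem convex_re_gt (K : ℝ) : Convex ℝ {z : ℂ | K < z.re} := convex_halfSpace_re_gt K
theorem isOpen_re_gt' (K : ℝ) : IsOpen {z : ℂ | K < z.re} := isOpen_lt continuous_const continuous_re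

/-- image of a disc under a map which is almost a translation -/
theorem ball_sub {f : ℂ → ℂ} {y : ℂ} {r : ℝ} (hr : 0 < r)
    (hf : ∀ z ∈ closedBall y r, DifferentiableAt ℂ f z) {f' : ℂ} (hy : HasDerivAt f f' y)
    (hf' : f' ≠ 0) {ε : ℝ} (hs : ∀ z ∈ sphere y r, ε ≤ ‖f z - f y‖) :
    ball (f y) (ε / 2) ⊆ f '' closedBall y r := by
  have hd : DifferentiableOn ℂ f (closedBall y r) :=
    fun z hz => (hf z hz).differentiableWithinAt
  exact (hd.diffContOnCl_ball Subset.rfl).ball_subset_image_closedBall hr hs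
    ((hy.eventually_ne hf').frequently.filter_mono le_rfl |>.filter_mono nhdsWithin_le_nhds)

/-- case of a pole: `θ' z = exp (- N z) u (exp z)`, `N ≥ 1` -/
theorem esc_pos {g : ℂ → ℂ} (hg : Differentiable ℂ g) (hp : ∀ x, g (x + 1) = g x)
    {K B : ℝ} {N : ℕ} (hN : 1 ≤ N) {θ u : ℂ → ℂ} (hu : ContinuousAt u 0) (hu0 : u 0 ≠ 0)
    (hθ : ∀ z : ℂ, z.re < -K → HasDerivAt θ (exp (-(N : ℂ) * z) * u (exp z)) z)
    (hB : ∀ z : ℂ, z.re < -K → ‖g (θ z)‖ ≤ B) : ∀ x, ‖g x‖ ≤ B := by
  have hNpos : (0 : ℝ) < N := by exact_mod_cast hN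
  have hN0 : (N : ℂ) ≠ 0 := by exact_mod_cast (by omega : N ≠ 0)
  set a : ℂ := -(u 0) / N with ha
  have ha0 : a ≠ 0 := div_ne_zero (neg_ne_zero.2 hu0) hN0
  set μ : ℂ := Complex.log a / N with hμ
  set ζ : ℂ → ℂ := fun x => μ - Complex.log x / N with hζ
  -- `exp (-N ζ x) = x / a`
  have hexp : ∀ x : ℂ, x ≠ 0 → exp (-(N : ℂ) * ζ x) = x / a := by
    intro x hx
    have : -(N : ℂ) * ζ x = Complex.log x - Complex.log a := by
      simp only [hζ, hμ]; field_simp; ring
    rw [this, exp_sub, exp_log hx, exp_log ha0]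
  have hre : ∀ x : ℂ, (ζ x).re = (Real.log ‖a‖ - Real.log ‖x‖) / N := by
    intro x
    have e : ζ x = ((N : ℝ)⁻¹ : ℝ) * (Complex.log a - Complex.log x) := by
      simp only [hζ, hμ]; push_cast; field_simp
    rw [e, re_ofReal_mul, sub_re, Complex.log_re, Complex.log_re]
    field_simp
  -- closeness
  have hcl : ∀ᶠ s in 𝓝 (0 : ℂ), ‖u s / u 0 - 1‖ ≤ 1 / 16 := by
    have h1 : Tendsto (fun s => u s / u 0 - 1) (𝓝 0) (𝓝 (u 0 / u 0 - 1)) :=
      (hu.tendsto.div_const _).sub_const 1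
    rw [div_self hu0, sub_self] at h1
    have h2 := h1.norm
    rw [norm_zero] at h2
    exact (h2.eventually (gt_mem_nhds (by norm_num : (0 : ℝ) < 1 / 16))).mono fun s hs => hs.le
  obtain ⟨η, hη, hηu⟩ := Metric.eventually_nhds_iff_ball.1 hcl
  -- threshold
  obtain ⟨K1, hK1a, hK1⟩ : ∃ K1 : ℝ, 0 < K1 ∧ ∀ x : ℂ, K1 < ‖x‖ →
      (ζ x).re < -K ∧ exp (ζ x) ∈ ball (0 : ℂ) η := by
    set M := max K (-Real.log η) + 1 with hM
    refine ⟨Real.exp (Real.log ‖a‖ + N * M), Real.exp_pos _, fun x hx => ?_⟩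
    have hx0 : 0 < ‖x‖ := (Real.exp_pos _).trans hx
    have h1 : Real.log ‖a‖ + N * M < Real.log ‖x‖ := (Real.lt_log_iff_exp_lt hx0).2 hx
    have h2 : (ζ x).re < -M := by
      rw [hre, div_lt_iff₀ hNpos]; linarith
    refine ⟨h2.trans_le ?_, ?_⟩
    · have := le_max_left K (-Real.log η); linarith
    · rw [mem_ball_zero_iff, Complex.norm_exp]
      rw [← Real.lt_log_iff_exp_lt hη]
      have := le_max_right K (-Real.log η)
      linarith
  set f : ℂ → ℂ := fun x => θ (ζ x) with hf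
  have hnorm : ∀ x : ℂ, K1 < x.re → K1 < ‖x‖ := fun x hx => hx.trans_le (re_le_norm x)
  have hfd : ∀ x : ℂ, K1 < x.re → HasDerivAt f (u (exp (ζ x)) / u 0) x := by
    intro x hx
    have hx0 : x ≠ 0 := by
      intro h; rw [h, zero_re] at hx; linarith
    have hsl : x ∈ slitPlane := Or.inl (hK1a.trans hx)
    have h1 : HasDerivAt ζ (-(x⁻¹ / N)) x := by
      have := ((Complex.hasDerivAt_log hsl).div_const (N : ℂ)).const_sub μ
      exact this
    have h2 := (hθ (ζ x) (hK1 x (hnorm x hx)).1).comp x h1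
    have h3 : exp (-(N : ℂ) * ζ x) * u (exp (ζ x)) * (-(x⁻¹ / N)) = u (exp (ζ x)) / u 0 := by
      rw [hexp x hx0, ha]
      field_simp
    rw [h3] at h2
    exact h2
  have hfb : ∀ x : ℂ, K1 < x.re → ‖u (exp (ζ x)) / u 0 - 1‖ ≤ 1 / 16 :=
    fun x hx => hηu _ (hK1 x (hnorm x hx)).2
  -- almost translation
  have hmv : ∀ x y : ℂ, K1 < x.re → K1 < y.re → ‖(f y - y) - (f x - x)‖ ≤ 1 / 16 * ‖y - x‖ := by
    intro x y hx hy
    refine (convex_re_gt K1).norm_image_sub_le_of_norm_hasDerivWithin_le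
      (f := fun x => f x - x) (f' := fun x => u (exp (ζ x)) / u 0 - 1) ?_ ?_ hx hy
    · intro z hz
      exact ((hfd z hz).sub (hasDerivAt_id z)).hasDerivWithinAt
    · intro z hz
      exact hfb z hz
  set x₀ : ℂ := ((K1 + 1 : ℝ) : ℂ) with hx₀
  have hx₀r : x₀.re = K1 + 1 := ofReal_re _
  set C : ℝ := ‖f x₀ - x₀‖ with hC
  have hC0 : 0 ≤ C := norm_nonneg _
  intro x
  -- a large real point
  set Y : ℝ := 16 * (|x.im| + C + K1 + 3) with hY
  have hxim : 0 ≤ |x.im| := abs_nonneg _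
  have hY1 : 2 * K1 + 2 < Y := by rw [hY]; linarith
  set y : ℂ := ((Y : ℝ) : ℂ) with hy
  have hyr : y.re = Y := ofReal_re _
  have hyi : y.im = 0 := ofReal_im _
  have hballre : ∀ z ∈ closedBall y (Y / 2), K1 < z.re := by
    intro z hz
    rw [mem_closedBall, dist_eq_norm] at hz
    have h1 := abs_re_le_norm (z - y)
    rw [sub_re, hyr] at h1
    have h2 := (abs_le.1 (h1.trans hz)).1
    linarith
  have hyre : K1 < y.re := by rw [hyr]; linarith
  have hne : u (exp (ζ y)) / u 0 ≠ 0 := by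
    intro h
    have := hfb y hyre
    rw [h, zero_sub, norm_neg, norm_one] at this
    norm_num at this
  have hsub := ball_sub (f := f) (y := y) (r := Y / 2) (by linarith)
    (fun z hz => (hfd z (hballre z hz)).differentiableAt) (hfd y hyre) hne (ε := Y / 4) (by
      intro z hz
      have hz' : ‖z - y‖ = Y / 2 := by rw [← dist_eq_norm]; exact hz
      have h1 := hmv y z hyre (hballre z (sphere_subset_closedBall hz))
      have h2 : f z - f y = (z - y) + ((f z - z) - (f y - y)) := by ring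
      have h3 : ‖z - y‖ - ‖(f z - z) - (f y - y)‖ ≤ ‖f z - f y‖ := by
        rw [h2]
        have := norm_sub_le_norm_add (z - y) ((f z - z) - (f y - y))
        exact this
      rw [hz'] at h1 h3
      linarith)
  -- the integer translate
  set k : ℤ := round ((f y).re - x.re) with hk
  have hk1 : |(f y).re - x.re - k| ≤ 1 / 2 := abs_sub_round _
  have him : |(f y).im| ≤ C + Y / 16 := by
    have h1 := hmv x₀ y (by rw [hx₀r]; linarith) hyre
    have h2 : ‖y - x₀‖ ≤ Y := by
      have : y - x₀ = ((Y - (K1 + 1) : ℝ) : ℂ) := by rw [hy, hx₀]; push_cast; ring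
      rw [this, Complex.norm_real, Real.norm_eq_abs, abs_of_nonneg (by linarith)]
      linarith
    have h3 : ‖f y - y‖ ≤ C + Y / 16 := by
      have : f y - y = ((f y - y) - (f x₀ - x₀)) + (f x₀ - x₀) := by ring
      rw [this]
      refine (norm_add_le _ _).trans ?_
      linarith
    have h4 := abs_im_le_norm (f y - y)
    rw [sub_im, hyi, sub_zero] at h4
    exact h4.trans h3
  have hmem : x + k ∈ ball (f y) (Y / 4 / 2) := by
    rw [mem_ball, dist_eq_norm]
    have h1 := norm_le_abs_re_add_abs_im (x + k - f y)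
    have h2 : (x + k - f y).re = -((f y).re - x.re - k) := by
      simp; ring
    have h3 : (x + k - f y).im = x.im - (f y).im := by simp
    rw [h2, h3, abs_neg] at h1
    have h4 : |x.im - (f y).im| ≤ |x.im| + |(f y).im| := abs_sub _ _
    have h5 : Y / 16 = |x.im| + C + K1 + 3 := by rw [hY]; ring
    have h6 : Y / 4 / 2 = Y / 16 + Y / 16 := by ring
    rw [h6]
    linarith
  obtain ⟨z, hz, hzx⟩ := hsub hmem
  have h1 := hB (ζ z) (hK1 z (hnorm z (hballre z hz))).1
  have h2 : θ (ζ z) = x + k := hzx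
  rw [h2, per_int hp] at h1
  exact h1

/-- case of a logarithm: `θ' z = u (exp z)` -/
theorem esc_zero {g : ℂ → ℂ} (hg : Differentiable ℂ g) (hp : ∀ x, g (x + 1) = g x)
    (hc : ∀ x, ‖g (conj x)‖ = ‖g x‖) {K B : ℝ} {θ u : ℂ → ℂ} (hu : AnalyticAt ℂ u 0)
    (hu0 : u 0 ≠ 0) (hθ : ∀ z : ℂ, z.re < -K → HasDerivAt θ (u (exp z)) z)
    (hB : ∀ z : ℂ, z.re < -K → ‖g (θ z)‖ ≤ B) : ∃ B', ∀ x, ‖g x‖ ≤ B' := by
  set c : ℂ := u 0 with hcd
  -- primitive of `(u s - u 0) / s`
  obtain ⟨ρ, hρ, hua⟩ := hu.exists_ball_analyticOnNhd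
  have hud : DifferentiableOn ℂ u (ball 0 ρ) := hua.differentiableOn
  have h0m : (0 : ℂ) ∈ ball (0 : ℂ) ρ := mem_ball_self hρ
  have hds : DifferentiableOn ℂ (dslope u 0) (ball 0 ρ) :=
    (differentiableOn_dslope (isOpen_ball.mem_nhds h0m)).2 hud
  obtain ⟨V, hV0, hV⟩ := hds.isExactOn_ball.with_val_at 0 0
  -- threshold
  have hVc : ContinuousAt V 0 := (hV 0 h0m).continuousAt
  have hcpos : 0 < ‖c‖ := norm_pos_iff.2 hu0
  have h1 : ∀ᶠ s in 𝓝 (0 : ℂ), ‖V s‖ ≤ ‖c‖ / 16 := by
    have h2 := hVc.tendsto.norm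
    rw [hV0, norm_zero] at h2
    exact (h2.eventually (gt_mem_nhds (by positivity : (0 : ℝ) < ‖c‖ / 16))).mono fun s hs => hs.le
  obtain ⟨η, hη, hηV⟩ := Metric.eventually_nhds_iff_ball.1 h1
  obtain ⟨K1, hK1⟩ : ∃ K1 : ℝ, ∀ z : ℂ, z.re < -K1 → z.re < -K ∧ exp z ∈ ball (0 : ℂ) η ∧
      exp z ∈ ball (0 : ℂ) ρ := by
    refine ⟨max K (max (-Real.log η) (-Real.log ρ)), fun z hz => ⟨?_, ?_, ?_⟩⟩
    · have := le_max_left K (max (-Real.log η) (-Real.log ρ)); linarith
    · rw [mem_ball_zero_iff, Complex.norm_exp, ← Real.lt_log_iff_exp_lt hη]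
      have h2 := le_max_right K (max (-Real.log η) (-Real.log ρ))
      have h3 := le_max_left (-Real.log η) (-Real.log ρ)
      linarith
    · rw [mem_ball_zero_iff, Complex.norm_exp, ← Real.lt_log_iff_exp_lt hρ]
      have h2 := le_max_right K (max (-Real.log η) (-Real.log ρ))
      have h3 := le_max_right (-Real.log η) (-Real.log ρ)
      linarith
  set P : Set ℂ := {z : ℂ | z.re < -K1} with hP
  have hconst : ∀ x ∈ P, ∀ y ∈ P, θ x - c * x - V (exp x) = θ y - c * y - V (exp y) := by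
    intro x hx y hy
    refine const_of_deriv (convex_re_lt (-K1)) (isOpen_re_lt' (-K1))
      (f := fun z => θ z - c * z - V (exp z)) ?_ hx hy
    intro z hz
    have h3 := hK1 z hz
    have h4 := ((hθ z h3.1).sub ((hasDerivAt_id z).const_mul c)).sub
      ((hV (exp z) h3.2.2).comp z (hasDerivAt_exp z))
    have h5 : u (exp z) - c * 1 - dslope u 0 (exp z) * exp z = 0 := by
      have := sub_smul_dslope u 0 (exp z)
      simp only [sub_zero, smul_eq_mul] at this
      rw [hcd]; linear_combination -this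
    rw [h5] at h4
    exact h4
  have hzP : (((-K1 - 1 : ℝ)) : ℂ) ∈ P := by
    show (((-K1 - 1 : ℝ)) : ℂ).re < -K1
    rw [ofReal_re]; linarith
  obtain ⟨c1, hc1⟩ : ∃ c1, ∀ z ∈ P, θ z = c * z + c1 + V (exp z) :=
    ⟨θ (((-K1 - 1 : ℝ)) : ℂ) - c * (((-K1 - 1 : ℝ)) : ℂ) - V (exp (((-K1 - 1 : ℝ)) : ℂ)),
      fun z hz => by linear_combination hconst z hz _ hzP⟩
  have hclose : ∀ z ∈ P, ‖θ z - (c * z + c1)‖ ≤ ‖c‖ / 16 := by
    intro z hz
    have : θ z - (c * z + c1) = V (exp z) := by rw [hc1 z hz]; ring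
    rw [this]
    exact hηV _ (hK1 z hz).2.1
  -- the image contains a half plane
  have himg : ∀ x : ℂ, ((x - c1) / c).re < -K1 - 2 → ‖g x‖ ≤ B := by
    intro x hx
    set z₀ : ℂ := (x - c1) / c with hz₀
    have hball : ∀ z ∈ closedBall z₀ 1, z ∈ P := by
      intro z hz
      rw [mem_closedBall, dist_eq_norm] at hz
      have h2 := abs_re_le_norm (z - z₀)
      rw [sub_re] at h2
      have h3 := (abs_le.1 (h2.trans hz)).2
      show z.re < -K1
      linarith
    have hz₀P : z₀ ∈ P := hball _ (mem_closedBall_self (by norm_num))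
    -- derivative nonzero at z₀ : choose from the estimate
    have hsph : ∀ z ∈ sphere z₀ 1, ‖c‖ / 2 ≤ ‖θ z - θ z₀‖ := by
      intro z hz
      have hz1 : ‖z - z₀‖ = 1 := by rw [← dist_eq_norm]; exact hz
      have h2 := hclose z (hball z (sphere_subset_closedBall hz))
      have h3 := hclose z₀ hz₀P
      have h4 : c * (z - z₀) = (θ z - θ z₀) - (θ z - (c * z + c1)) + (θ z₀ - (c * z₀ + c1)) := by
        ring
      have h5 : ‖c * (z - z₀)‖ = ‖c‖ := by rw [norm_mul, hz1, mul_one]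
      have h6 : ‖c‖ ≤ ‖θ z - θ z₀‖ + ‖c‖ / 16 + ‖c‖ / 16 := by
        rw [← h5]
        nth_rewrite 1 [h4]
        refine (norm_add_le _ _).trans (add_le_add ((norm_sub_le _ _).trans
          (add_le_add le_rfl ?_)) ?_)
        · rw [h5]; exact h2
        · rw [h5]; exact h3
      linarith
    have hd : DifferentiableOn ℂ θ (closedBall z₀ 1) := fun z hz =>
      (hθ z (hK1 z (hball z hz)).1).differentiableAt.differentiableWithinAt
    have hfr : ∃ᶠ z in 𝓝 z₀, θ z ≠ θ z₀ := by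
      by_contra hcon
      rw [not_frequently] at hcon
      have hev : ∀ᶠ z in 𝓝 z₀, θ z = θ z₀ := hcon.mono fun z hz => not_not.1 hz
      have han : AnalyticOnNhd ℂ θ P := fun z hz => by
        have : DifferentiableOn ℂ θ P := fun y hy =>
          (hθ y (hK1 y hy).1).differentiableAt.differentiableWithinAt
        exact this.analyticOnNhd (isOpen_re_lt' (-K1)) z hz
      have heq := han.eqOn_of_preconnected_of_eventuallyEq (analyticOnNhd_const (v := θ z₀))
        (convex_re_lt (-K1)).isPreconnected hz₀P hev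
      have h7 : z₀ + 1 ∈ sphere z₀ 1 := by simp
      have h8 := hsph _ h7
      rw [heq (hball _ (sphere_subset_closedBall h7)), sub_self, norm_zero] at h8
      linarith
    have hsub := (hd.diffContOnCl_ball Subset.rfl).ball_subset_image_closedBall
      (by norm_num : (0 : ℝ) < 1) hsph hfr
    have hmem : x ∈ ball (θ z₀) (‖c‖ / 2 / 2) := by
      rw [mem_ball, dist_eq_norm, norm_sub_rev]
      have h2 := hclose z₀ hz₀P
      have h3 : c * z₀ + c1 = x := by rw [hz₀]; field_simp; ring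
      rw [h3] at h2
      linarith
    obtain ⟨z, hz, hzx⟩ := hsub hmem
    have h2 := hB z (hK1 z (hball z hz)).1
    rwa [hzx] at h2
  -- conclusion
  set γ : ℂ := c⁻¹ with hγ
  have hγ0 : γ ≠ 0 := inv_ne_zero hu0
  have hdiv : ∀ x : ℂ, ((x - c1) / c).re = γ.re * (x.re - c1.re) - γ.im * (x.im - c1.im) := by
    intro x
    rw [div_eq_mul_inv, mul_comm, mul_re, sub_re, sub_im]
  by_cases hre : γ.re = 0
  · -- real translation does not help : use the conjugation
    have him : γ.im ≠ 0 := by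
      intro h
      exact hγ0 (Complex.ext (by rw [hre, zero_re]) (by rw [h, zero_im]))
    have himp : 0 < |γ.im| := abs_pos.2 him
    set K2 : ℝ := (|γ.im| * |c1.im| + |K1| + 3) / |γ.im| with hK2
    have hout : ∀ x : ℂ, K2 < |x.im| → ‖g x‖ ≤ B := by
      intro x hx
      have hx2 : |γ.im| * |c1.im| + |K1| + 3 < |γ.im| * |x.im| := by
        rw [hK2, div_lt_iff₀ himp] at hx; linarith
      -- one of `x`, `conj x` lies in the half plane
      have key : ∀ y : ℂ, |y.im| = |x.im| → 0 ≤ γ.im * y.im → ‖g y‖ ≤ B := by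
        intro y hy hs
        apply himg
        rw [hdiv, hre]
        have h2 : γ.im * y.im = |γ.im| * |x.im| := by
          rw [← hy, ← abs_mul, abs_of_nonneg hs]
        have h3 : γ.im * c1.im ≤ |γ.im| * |c1.im| := by
          rw [← abs_mul]; exact le_abs_self _
        have h4 := neg_abs_le K1
        have h5 := le_abs_self K1
        nlinarith
      rcases le_total 0 (γ.im * x.im) with h | h
      · exact key x rfl h
      · rw [← hc x]
        refine key (conj x) ?_ ?_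
        · rw [conj_im, abs_neg]
        · rw [conj_im]; linarith
    -- the compact middle part
    have hcpt : IsCompact (Icc (0 : ℝ) 1 ×ˢ Icc (-K2) K2) := isCompact_Icc.prod isCompact_Icc
    have hcont : Continuous fun p : ℝ × ℝ => ‖g ((p.1 : ℂ) + p.2 * I)‖ :=
      (hg.continuous.comp (by fun_prop)).norm
    obtain ⟨B2, hB2⟩ := hcpt.bddAbove_image hcont.continuousOn
    refine ⟨max B B2, fun x => ?_⟩
    by_cases hx : K2 < |x.im|
    · exact (hout x hx).trans (le_max_left _ _)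
    · push Not at hx
      have h2 := per_int hp x (-⌊x.re⌋)
      have h3 : x + ((-⌊x.re⌋ : ℤ) : ℂ) = ((Int.fract x.re : ℝ) : ℂ) + (x.im : ℝ) * I := by
        apply Complex.ext
        · simp [Int.fract, sub_eq_add_neg]
        · simp
      rw [← h2, h3]
      refine le_trans (hB2 ⟨(Int.fract x.re, x.im), ⟨⟨Int.fract_nonneg _, (Int.fract_lt_one _).le⟩,
        abs_le.1 hx⟩, rfl⟩) (le_max_right _ _)
  · refine ⟨B, fun x => ?_⟩
    -- translate into the half plane
    obtain ⟨k, hk⟩ : ∃ k : ℤ, γ.re * k < -(K1 + 2) - (((x - c1) / c).re) := by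
      set T : ℝ := -(K1 + 2) - (((x - c1) / c).re) with hT
      rcases lt_or_gt_of_ne hre with h | h
      · obtain ⟨n, hn⟩ := exists_int_gt (T / γ.re)
        refine ⟨n, ?_⟩
        rw [div_lt_iff_of_neg h] at hn
        linarith
      · obtain ⟨n, hn⟩ := exists_int_lt (T / γ.re)
        refine ⟨n, ?_⟩
        rw [lt_div_iff₀ h] at hn
        linarith
    rw [← per_int hp x k]
    apply himg
    have h3 := hdiv x
    have h4 := hdiv (x + k)
    have h5 : (x + (k : ℂ)).re = x.re + k := by simp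
    have h6 : (x + (k : ℂ)).im = x.im := by simp
    rw [h5, h6] at h4
    rw [h4]
    rw [h3] at hk
    nlinarith

/-- **ESC** -/
theorem esc {g : ℂ → ℂ} (hg : Differentiable ℂ g) (hp : ∀ x, g (x + 1) = g x)
    (hc : ∀ x, ‖g (conj x)‖ = ‖g x‖) {K B : ℝ} {N : ℕ} {θ u : ℂ → ℂ} (hu : AnalyticAt ℂ u 0)
    (hu0 : u 0 ≠ 0) (hθ : ∀ z : ℂ, z.re < -K → HasDerivAt θ (exp (-(N : ℂ) * z) * u (exp z)) z)
    (hB : ∀ z : ℂ, z.re < -K → ‖g (θ z)‖ ≤ B) : ∀ x y, g x = g y := by
  rcases Nat.eq_zero_or_pos N with h | h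
  · subst h
    obtain ⟨B', hB'⟩ := esc_zero hg hp hc hu hu0 (θ := θ) (K := K) (B := B) (fun z hz => by
      have := hθ z hz
      simpa using this) hB
    exact const_of_bdd hg hB'
  · exact const_of_bdd hg (esc_pos hg hp h hu.continuousAt hu0 hθ hB)

end Vale.Agent.P097.H456.Edge
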