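import Vale.Agent.P097.H456.Edge.Slice
import Vale.Agent.P097.H456.Edge.Mono
import Vale.Agent.P097.H531.CD.Defs

/-!
# P097 / case [d]: Row Lift
-/

set_option linter.all false

open Complex Metric Filter Topology Set
open scoped ComplexConjugate

namespace Vale.Agent.P097.H456.Edge

open Vale.Agent.P097 Vale.Agent.P097.CD

/-- positions for the pair `(f₁, f₂)` -/
def PL (F q f₁ f₂ : ℂ → ℂ) (U : Set ℂ) (θ : ℂ → ℂ) : Prop :=
  DifferentiableOn ℂ θ U ∧ (∃ t ∈ U, deriv θ t ≠ 0) ∧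
    ∀ t ∈ U, ∀ᶠ s in 𝓝[≠] t, f₁ s = exp (2 * I * F (θ s)) ∧ f₂ s = q (θ s) * exp (-I * F (θ s))

theorem PL.res' {F q f₁ f₂ : ℂ → ℂ} {U V : Set ℂ} {f : ℂ → ℂ} (h : PL F q f₁ f₂ U f)
    (hU : IsOpen U) (hUc : IsPreconnected U) (hV : IsOpen V) (hVn : V.Nonempty) (hVU : V ⊆ U) :
    PL F q f₁ f₂ V f := by
  obtain ⟨h1, ⟨t, ht, htd⟩, h3⟩ := h
  refine ⟨h1.mono hVU, ?_, fun s hs => h3 s (hVU hs)⟩
  by_contra hcon
  push Not at hcon
  obtain ⟨x, hx⟩ := hVn
  have h4 := ((h1.deriv hU).analyticOnNhd hU).eqOn_zero_of_preconnected_of_eventuallyEq_zero hUc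
    (hVU hx) (by filter_upwards [hV.mem_nhds hx] with s hs using hcon s hs)
  exact htd (h4 ht)

theorem PL.congr {F q f₁ f₂ : ℂ → ℂ} {U : Set ℂ} {f g : ℂ → ℂ} (hU : IsOpen U)
    (h : PL F q f₁ f₂ U f) (he : EqOn f g U) : PL F q f₁ f₂ U g := by
  obtain ⟨h1, ⟨t, ht, htd⟩, h3⟩ := h
  refine ⟨h1.congr fun x hx => (he hx).symm, ⟨t, ht, ?_⟩, fun s hs => ?_⟩
  · have : g =ᶠ[𝓝 t] f := by
      filter_upwards [hU.mem_nhds ht] with s hs using (he hs).symm
    rw [this.deriv_eq]; exact htd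
  · filter_upwards [h3 s hs, mem_nhdsWithin_of_mem_nhds (hU.mem_nhds hs)] with x hx hxU
    rw [← he hxU]; exact hx

theorem cls_PL (F q f₁ f₂ : ℂ → ℂ) : Cls (PL F q f₁ f₂) where
  df := fun U f h => h.1
  res := fun U V f h hU hUc hV hVc hVn hVU => h.res' hU hUc.isPreconnected hV hVn hVU
  glue := by
    rintro U V f hU hV ⟨h1, ⟨t, ht, htd⟩, h3⟩ ⟨h1', -, h3'⟩
    refine ⟨?_, ⟨t, Or.inl ht, htd⟩, ?_⟩
    · rintro x (hx | hx)
      · exact (h1.differentiableAt (hU.mem_nhds hx)).differentiableWithinAt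
      · exact (h1'.differentiableAt (hV.mem_nhds hx)).differentiableWithinAt
    · rintro x (hx | hx)
      · exact h3 x hx
      · exact h3' x hx
  congr := fun U f g hU h he => h.congr hU he
  res' := fun U V f h hU hUc hV hVn hVU => h.res' hU hUc hV hVn hVU
  loc := by
    intro U f hU hUn hf hloc
    refine ⟨hf, ?_, fun t ht => ?_⟩
    · obtain ⟨x, hx⟩ := hUn
      obtain ⟨V, -, -, hVU, -, ⟨t, ht, htd⟩, -⟩ := hloc x hx
      exact ⟨t, hVU ht, htd⟩
    · obtain ⟨V, -, hx, -, -, -, h3⟩ := hloc t ht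
      exact h3 t hx

/-- a generic point of a position -/
theorem generic {F q : ℂ → ℂ} {c : ℂ} (E : Ent F q c) {V : Set ℂ} (hV : IsOpen V) {θ : ℂ → ℂ}
    (hθ : DifferentiableOn ℂ θ V) (h : ∃ t ∈ V, deriv θ t ≠ 0) :
    ∃ t ∈ V, cos (F (θ t)) ≠ 0 ∧ q (θ t) ≠ 0 ∧ deriv θ t ≠ 0 := by
  obtain ⟨t₁, ht₁, hd₁⟩ := h
  -- step 0 : a ball with `θ' ≠ 0`
  have hdc : ContinuousOn (deriv θ) V := (hθ.deriv hV).continuousOn
  have hev : ∀ᶠ t in 𝓝 t₁, t ∈ V ∧ deriv θ t ≠ 0 := by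
    filter_upwards [hV.mem_nhds ht₁, (hdc.continuousAt (hV.mem_nhds ht₁)).eventually_ne hd₁]
      with t h1 h2 using ⟨h1, h2⟩
  obtain ⟨r₁, hr₁, hb₁⟩ := Metric.eventually_nhds_iff_ball.1 hev
  set B := ball t₁ r₁ with hB
  have hBV : B ⊆ V := fun t ht => (hb₁ t ht).1
  have hBd : ∀ t ∈ B, deriv θ t ≠ 0 := fun t ht => (hb₁ t ht).2
  have hθB : DifferentiableOn ℂ θ B := hθ.mono hBV
  have hθt : ∀ t ∈ B, HasDerivAt θ (deriv θ t) t := fun t ht =>
    (hθB.differentiableAt (isOpen_ball.mem_nhds ht)).hasDerivAt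
  -- if `f (θ t) = 0` near a point, then `f' (θ t) = 0`
  have key : ∀ f : ℂ → ℂ, Differentiable ℂ f → ∀ t ∈ B, (∀ᶠ s in 𝓝 t, f (θ s) = 0) →
      deriv f (θ t) = 0 := by
    intro f hf t ht hz
    have h1 := (hf (θ t)).hasDerivAt.comp t (hθt t ht)
    have h2 : HasDerivAt (fun s => f (θ s)) 0 t :=
      (hasDerivAt_const t (0 : ℂ)).congr_of_eventuallyEq hz
    have h3 := h1.unique h2
    exact (mul_eq_zero.1 h3).resolve_right (hBd t ht)
  have dF1 : Differentiable ℂ (deriv F) :=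
    differentiableOn_univ.1 (E.dΦ.differentiableOn.deriv isOpen_univ)
  have dq1 : Differentiable ℂ (deriv q) :=
    differentiableOn_univ.1 (E.dq.differentiableOn.deriv isOpen_univ)
  have t₁B : t₁ ∈ B := mem_ball_self hr₁
  -- `F' (θ) ≠ 0` at some point of any small ball
  have hF1 : ∀ t ∈ B, ¬ ∀ᶠ s in 𝓝 t, deriv F (θ s) = 0 := by
    intro t ht hz
    have h1 := key _ dF1 t ht hz
    have h2 := hz.self_of_nhds
    have h3 := E.wr (θ t)
    unfold SC.Wr at h3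
    rw [h1, h2] at h3
    apply E.c0
    rw [← h3]; ring
  have hc1 : ∀ t ∈ B, ¬ ∀ᶠ s in 𝓝 t, cos (F (θ s)) = 0 := by
    intro t ht hz
    refine hF1 t ht ?_
    filter_upwards [hz.eventually_nhds, isOpen_ball.mem_nhds ht] with s hs hsB
    have dc : Differentiable ℂ (fun x => cos (F x)) := E.dΦ.ccos
    have h1 := key _ dc s hsB hs
    have h2 : deriv (fun x => cos (F x)) (θ s) = -sin (F (θ s)) * deriv F (θ s) :=
      ((E.dΦ (θ s)).hasDerivAt.ccos).deriv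
    rw [h2] at h1
    have h3 : sin (F (θ s)) ≠ 0 := by
      intro h4
      have h5 := Complex.sin_sq_add_cos_sq (F (θ s))
      rw [h4, hs.self_of_nhds] at h5
      norm_num at h5
    exact (mul_eq_zero.1 h1).resolve_left (neg_ne_zero.2 h3)
  have hq1 : ∀ t ∈ B, ¬ ∀ᶠ s in 𝓝 t, q (θ s) = 0 := by
    intro t ht hz
    have h1 : ∀ᶠ s in 𝓝 t, deriv q (θ s) = 0 := by
      filter_upwards [hz.eventually_nhds, isOpen_ball.mem_nhds ht] with s hs hsB using
        key _ E.dq s hsB hs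
    have h2 := key _ dq1 t ht h1
    have h3 := E.wr (θ t)
    unfold SC.Wr at h3
    rw [h2, h1.self_of_nhds, hz.self_of_nhds] at h3
    apply E.c0
    rw [← h3]; ring
  -- choose
  have dcos : DifferentiableOn ℂ (fun t => cos (F (θ t))) B :=
    (E.dΦ.comp_differentiableOn hθB).ccos
  have dqθ : DifferentiableOn ℂ (fun t => q (θ t)) B := E.dq.comp_differentiableOn hθB
  have e1 : ∃ t ∈ B, cos (F (θ t)) ≠ 0 := by
    by_contra hcon
    push Not at hcon
    exact hc1 t₁ t₁B (by filter_upwards [isOpen_ball.mem_nhds t₁B] with s hs using hcon s hs)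
  have e2 : ∃ t ∈ B, q (θ t) ≠ 0 := by
    by_contra hcon
    push Not at hcon
    exact hq1 t₁ t₁B (by filter_upwards [isOpen_ball.mem_nhds t₁B] with s hs using hcon s hs)
  obtain ⟨t, ht, h1, h2⟩ := exists_ne_small2 dcos dqθ e1 e2 hr₁ Subset.rfl
  exact ⟨t, hBV ht, h1, h2, hBd t ht⟩

theorem ent_of_Bs {Λ : ℝ} {F q Q : ℂ → ℂ} (B : Bs Λ F q Q) : Ent F q ((Λ : ℂ) ^ 3) where
  dΦ := B.dF
  dq := B.dq
  c0 := pow_ne_zero _ (by exact_mod_cast B.Λ0.ne')
  wr := B.wr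
  per := by
    intro x
    have h1 : HasDerivAt (fun z => F (z + 1)) (deriv F (x + 1)) x :=
      (B.dF (x + 1)).hasDerivAt.comp_add_const x 1
    have h2 : HasDerivAt (fun z => F (z + 1)) (deriv F x) x := by
      have h3 := (B.dF x).hasDerivAt.add_const (2 * Real.pi : ℂ)
      exact h3.congr_of_eventuallyEq (Eventually.of_forall B.Fp)
    exact h1.unique h2
  cj := by
    intro x
    have h1 : F = fun z => conj (F (conj z)) := by
      funext z
      rw [B.Fc, Complex.conj_conj]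
    have h2 : HasDerivAt (fun z => conj (F (conj z))) (conj (deriv F (conj (conj x)))) (conj x) := by
      have h3 := (B.dF x).hasDerivAt.conj_conj
      have h4 : conj (conj x) = x := Complex.conj_conj x
      rw [h4]
      exact h3
    rw [← h1, Complex.conj_conj] at h2
    rw [h2.deriv, Complex.norm_conj]
  nc := by
    intro h
    exact B.nc ⟨deriv F 0, fun z => h z 0⟩

/-- **local extension** for `PL` -/
theorem locExt_PL {F q f₁ f₂ : ℂ → ℂ} {c : ℂ} (E : Ent F q c) {W : Set ℂ} (hW : IsOpen W)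
    (m₁ : MeromorphicOn f₁ W) (m₂ : MeromorphicOn f₂ W) : LocExt (PL F q f₁ f₂) W := by
  intro τ hτ
  set Z : ℂ → ℂ := f₁ with hZ
  set pb : ℂ → ℂ := fun t => f₂ t * (f₁ t + 1) with hpb
  have mZ : ∀ t ∈ W, MeromorphicAt Z t := m₁
  have mpb : ∀ t ∈ W, MeromorphicAt pb t := fun t ht =>
    (m₂ t ht).mul ((m₁ t ht).add (MeromorphicAt.const 1 t))
  have d0 : DifferentiableOn ℂ (fun _ : ℂ => (0 : ℂ)) W := differentiableOn_const 0
  obtain ⟨ρ, hρ, hρW, hext⟩ := ext_pos (a := fun _ => 0) (pa := fun _ => 0) (c := c) E hW d0 d0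
    mZ mpb hτ
  refine ⟨ρ, hρ, hρW, fun V f hV hVc hVn hVb hf => ?_⟩
  obtain ⟨hfd, hfn, hfr⟩ := hf
  obtain ⟨t₁, ht₁, hg1, hg2, hg3⟩ := generic E hV hfd hfn
  -- conditions near `t₁`, on a punctured neighbourhood
  have hcc : ContinuousAt (fun t => cos (F (f t))) t₁ :=
    ((E.dΦ.comp_differentiableOn hfd).ccos.differentiableAt (hV.mem_nhds ht₁)).continuousAt
  have hqc : ContinuousAt (fun t => q (f t)) t₁ :=
    ((E.dq.comp_differentiableOn hfd).differentiableAt (hV.mem_nhds ht₁)).continuousAt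
  have hdc : ContinuousAt (deriv f) t₁ :=
    ((hfd.deriv hV).differentiableAt (hV.mem_nhds ht₁)).continuousAt
  have hev : ∀ᶠ t in 𝓝[≠] t₁, (t ∈ V ∧ cos (F (f t)) ≠ 0 ∧ q (f t) ≠ 0 ∧ deriv f t ≠ 0) ∧
      (f₁ t = exp (2 * I * F (f t)) ∧ f₂ t = q (f t) * exp (-I * F (f t))) := by
    have h1 : ∀ᶠ t in 𝓝 t₁, t ∈ V ∧ cos (F (f t)) ≠ 0 ∧ q (f t) ≠ 0 ∧ deriv f t ≠ 0 := by
      filter_upwards [hV.mem_nhds ht₁, hcc.eventually_ne hg1, hqc.eventually_ne hg2,
        hdc.eventually_ne hg3] with t a b c d using ⟨a, b, c, d⟩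
    exact (h1.filter_mono nhdsWithin_le_nhds).and (hfr t₁ ht₁)
  obtain ⟨r, hr, hrb⟩ := Metric.mem_nhdsWithin_iff.1 hev
  -- a point of the punctured ball and a small ball around it
  obtain ⟨x, hx, hxne⟩ : ∃ x ∈ ball t₁ r, x ≠ t₁ := by
    refine ⟨t₁ + (r / 2 : ℝ), ?_, ?_⟩
    · rw [mem_ball, dist_eq_norm, add_sub_cancel_left, Complex.norm_real, Real.norm_eq_abs,
        abs_of_pos (by positivity)]
      linarith
    · intro h
      have : ((r / 2 : ℝ) : ℂ) = 0 := by linear_combination h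
      rw [ofReal_eq_zero] at this
      linarith
  have hO : IsOpen (ball t₁ r ∩ {t | t ≠ t₁}) := isOpen_ball.inter isOpen_ne
  obtain ⟨r', hr', hrb'⟩ := Metric.isOpen_iff.1 hO x ⟨hx, hxne⟩
  have hin : ∀ t ∈ ball x r', (t ∈ V ∧ cos (F (f t)) ≠ 0 ∧ q (f t) ≠ 0 ∧ deriv f t ≠ 0) ∧
      (f₁ t = exp (2 * I * F (f t)) ∧ f₂ t = q (f t) * exp (-I * F (f t))) :=
    fun t ht => hrb ⟨(hrb' ht).1, (hrb' ht).2⟩
  have hcos : ∀ x : ℂ, 2 * cos x = exp (-I * x) * (exp (2 * I * x) + 1) := by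
    intro x
    rw [Complex.cos, mul_add, ← exp_add, mul_one]
    have e1 : -I * x + 2 * I * x = x * I := by ring
    have e2 : -I * x = -x * I := by ring
    rw [e1, e2]; ring
  obtain ⟨y, ρ₁, hyV, hyR, hyP⟩ := pos_first (Z := Z) (pb := pb) (a := fun _ => 0)
    (pa := fun _ => 0) (c := c) (B := W) E hW d0 d0 (V := ball x r') isOpen_ball
    (fun t ht => hρW (hVb (hin t ht).1.1)) (θ₀ := f) (hfd.mono fun t ht => (hin t ht).1.1)
    (fun t ht => by
      rw [hZ, (hin t ht).2.1]; congr 1; ring)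
    (fun t ht => by
      simp only [hpb, zero_add, sub_zero]
      rw [(hin t ht).2.1, (hin t ht).2.2]
      have := hcos (F (f t))
      linear_combination -q (f t) * this)
    ⟨x, mem_ball_self hr', by simpa using (hin x (mem_ball_self hr')).1.2⟩
  obtain ⟨θ, hθe, hθP⟩ := hext (ball y ρ₁) f isOpen_ball (convex_ball _ _).isPreconnected
    (fun t ht => hVb (hin t (hyV ht)).1.1) hyP.dθ hyR hyP.cs hyP.dn
  -- agreement on `V`
  have hyP0 : 0 < ρ₁ := hyP.ρ0
  have hyV' : y ∈ V := (hin y (hyV (mem_ball_self hyP0))).1.1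
  have hag : EqOn θ f V := by
    have h1 : AnalyticOnNhd ℂ θ V := (hθP.dθ.mono hVb).analyticOnNhd hV
    exact h1.eqOn_of_preconnected_of_eventuallyEq (hfd.analyticOnNhd hV) hVc.isPreconnected hyV'
      (by filter_upwards [isOpen_ball.mem_nhds (mem_ball_self hyP0)] with s hs using hθe s hs)
  refine ⟨θ, ⟨hθP.dθ, hθP.dn, fun t ht => ?_⟩, hag⟩
  -- relations in punctured neighbourhoods
  have hcs : ∀ᶠ s in 𝓝[≠] t, cos (F (θ s)) ≠ 0 := by
    have h1 : AnalyticOnNhd ℂ (fun s => cos (F (θ s))) (ball τ ρ) :=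
      (E.dΦ.comp_differentiableOn hθP.dθ).ccos.analyticOnNhd isOpen_ball
    rcases (h1 t ht).eventually_eq_zero_or_eventually_ne_zero with h | h
    · exfalso
      have h2 := h1.eqOn_zero_of_preconnected_of_eventuallyEq_zero
        (convex_ball τ ρ).isPreconnected ht h
      obtain ⟨s, hs, hs'⟩ := hθP.cs
      apply hs'
      have := h2 hs
      simpa using this
    · exact h
  have hneτ : ∀ᶠ s in 𝓝[≠] t, s ≠ τ := by
    by_cases h : t = τ
    · rw [h]; exact self_mem_nhdsWithin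
    · exact mem_nhdsWithin_of_mem_nhds (isOpen_ne.mem_nhds h)
  filter_upwards [hcs, hneτ, mem_nhdsWithin_of_mem_nhds (isOpen_ball.mem_nhds ht)] with s h1 h2 h3
  have h4 := hθP.rl s h3 h2
  have h5 : f₁ s = exp (2 * I * F (θ s)) := by
    have := h4.r1
    rw [hZ] at this
    rw [this]; congr 1; ring
  refine ⟨h5, ?_⟩
  have h6 := h4.r2
  simp only [hpb, zero_add, sub_zero] at h6
  rw [h5] at h6
  have h7 := hcos (F (θ s))
  have h8 : exp (2 * I * F (θ s)) + 1 ≠ 0 := by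
    intro h9
    rw [h9, mul_zero] at h7
    exact h1 (by linear_combination h7 / 2)
  have h9 : (f₂ s - q (θ s) * exp (-I * F (θ s))) * (exp (2 * I * F (θ s)) + 1) = 0 := by
    linear_combination h6 + q (θ s) * h7
  exact sub_eq_zero.1 ((mul_eq_zero.1 h9).resolve_right h8)

/-- **Row Lift** -/
theorem rowLift : RowLift := by
  intro Λ F q Q B W hW hWc f₁ f₂ m₁ m₂ t₀ θ ht₀ hθ hnc hrel
  have E := ent_of_Bs B
  -- a first chart
  have hall : ∀ᶠ t in 𝓝 t₀, AnalyticAt ℂ θ t ∧ t ∈ W ∧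
      (f₁ t = exp (2 * I * F (θ t)) ∧ f₂ t = q (θ t) * exp (-I * F (θ t))) := by
    filter_upwards [hθ.eventually_analyticAt, hW.mem_nhds ht₀, hrel] with t a b c using ⟨a, b, c⟩
  obtain ⟨r, hr, hrb⟩ := Metric.eventually_nhds_iff_ball.1 hall
  have hd : DifferentiableOn ℂ θ (ball t₀ r) := fun t ht =>
    (hrb t ht).1.differentiableAt.differentiableWithinAt
  have hn : ∃ t ∈ ball t₀ r, deriv θ t ≠ 0 := by
    by_contra hcon
    push Not at hcon
    apply hnc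
    filter_upwards [isOpen_ball.mem_nhds (mem_ball_self hr)] with t ht
    refine const_of_deriv (convex_ball t₀ r) isOpen_ball (fun z hz => ?_) ht (mem_ball_self hr)
    rw [← hcon z hz]
    exact (hd.differentiableAt (isOpen_ball.mem_nhds hz)).hasDerivAt
  have hG : PL F q f₁ f₂ (ball t₀ r) θ := ⟨hd, hn, fun t ht => by
    filter_upwards [mem_nhdsWithin_of_mem_nhds (isOpen_ball.mem_nhds ht)] with s hs
    exact (hrb s hs).2.2⟩
  obtain ⟨f, hf, hfe⟩ := mono (cls_PL F q f₁ f₂) hW hWc (locExt_PL E hW m₁ m₂) (f₀ := θ) ht₀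
    ⟨ball t₀ r, θ, isOpen_ball, convex_ball _ _, by
      rw [segment_same]; exact singleton_subset_iff.2 (mem_ball_self hr),
      fun t ht => (hrb t ht).2.1, hG, EventuallyEq.rfl⟩
  exact ⟨f, hf.1, hfe⟩

end Vale.Agent.P097.H456.Edge
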