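import Vale.Agent.P097.H456.Edge.Esc
import Vale.Agent.P097.H202.Prim
import Vale.Agent.P097.H699.Schottky
import Vale.Agent.P097.H128.Sector.Defs

/-!
# P097 / Edge: local structure of a position of an entire curve

`Φ`, `q` entire, `Wr Φ q = c ≠ 0`, `Φ'` periodic and not constant.  A position `θ` with
`Z = exp (i (2 Φ θ - a))`, `pa + pb = 2 q(θ) cos (Φ θ - a)`, `θ' ^ 6 = m` with `Z`, `pb`, `m`
meromorphic at `τ`, extends holomorphically to a full neighbourhood of `τ`.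
-/

set_option linter.all false

open Complex Metric Filter Topology Set
open scoped ComplexConjugate

namespace Vale.Agent.P097.H456.Edge

open Vale.Agent.P097

/-- an entire curve in the affine parameter, not a circle -/
structure Ent (Φ q : ℂ → ℂ) (c : ℂ) : Prop where
  dΦ : Differentiable ℂ Φ
  dq : Differentiable ℂ q
  c0 : c ≠ 0
  wr : ∀ x, SC.Wr Φ q x = c
  per : ∀ x, deriv Φ (x + 1) = deriv Φ x
  cj : ∀ x, ‖deriv Φ (conj x)‖ = ‖deriv Φ x‖
  nc : ¬ ∀ x y, deriv Φ x = deriv Φ y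

/-- the relations of a position -/
structure Rl (Φ q a pa Z pb m θ : ℂ → ℂ) (t : ℂ) : Prop where
  r1 : Z t = exp (I * (2 * Φ (θ t) - a t))
  r2 : pa t + pb t = 2 * q (θ t) * cos (Φ (θ t) - a t)
  r6 : deriv θ t ^ 6 = m t

/-- the local data in a punctured disc -/
structure Pd (Z pb m : ℂ → ℂ) (τ : ℂ) (ρ : ℝ) (k kz : ℤ) (u uz : ℂ → ℂ) : Prop where
  ρ0 : 0 < ρ
  du : DifferentiableOn ℂ u (ball τ ρ)
  u0 : ∀ t ∈ ball τ ρ, u t ≠ 0
  mu : ∀ t ∈ ball τ ρ, t ≠ τ → m t = (t - τ) ^ k * u t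
  duz : DifferentiableOn ℂ uz (ball τ ρ)
  uz0 : ∀ t ∈ ball τ ρ, uz t ≠ 0
  Zu : ∀ t ∈ ball τ ρ, t ≠ τ → Z t = (t - τ) ^ kz * uz t
  dpb : ∀ t ∈ ball τ ρ, t ≠ τ → DifferentiableAt ℂ pb t

/-- the exponential coordinate -/
noncomputable def Tt (τ : ℂ) (z : ℂ) : ℂ := τ + exp (6 * z)

theorem hasDerivAt_Tt (τ z : ℂ) : HasDerivAt (Tt τ) (6 * exp (6 * z)) z := by
  have h1 : HasDerivAt (fun z : ℂ => exp (6 * z)) (exp (6 * z) * (6 * 1)) z :=
    ((hasDerivAt_id z).const_mul 6).cexp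
  have h2 := h1.const_add τ
  have e : exp (6 * z) * (6 * 1) = 6 * exp (6 * z) := by ring
  rw [e] at h2
  exact h2

theorem Tt_ne (τ z : ℂ) : Tt τ z ≠ τ := by
  intro h
  have : exp (6 * z) = 0 := by unfold Tt at h; linear_combination h
  exact exp_ne_zero _ this

theorem Tt_sub (τ z : ℂ) : Tt τ z - τ = exp (6 * z) := by unfold Tt; ring

theorem Tt_mem {τ z : ℂ} {ρ : ℝ} (hρ : 0 < ρ) : Tt τ z ∈ ball τ ρ ↔ z.re < Real.log ρ / 6 := by
  rw [mem_ball, dist_eq_norm, Tt_sub, Complex.norm_exp]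
  have : (6 * z).re = 6 * z.re := by simp
  rw [this, ← Real.lt_log_iff_exp_lt hρ]
  constructor <;> intro h <;> linarith

theorem exists_Tt {τ t : ℂ} (h : t ≠ τ) : ∃ z, Tt τ z = t := by
  refine ⟨Complex.log (t - τ) / 6, ?_⟩
  unfold Tt
  rw [mul_div_cancel₀ _ (by norm_num : (6 : ℂ) ≠ 0), exp_log (sub_ne_zero.2 h)]
  ring

/-- a curve with `Φ' = q' = 0` at a point is impossible -/
theorem Ent.reg {Φ q : ℂ → ℂ} {c : ℂ} (E : Ent Φ q c) (x : ℂ) :
    ¬ (deriv Φ x = 0 ∧ deriv q x = 0) := by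
  rintro ⟨h1, h2⟩
  have := E.wr x
  unfold SC.Wr at this
  rw [h1, h2] at this
  simp only [mul_zero, zero_mul, sub_self, ne_eq, OfNat.ofNat_ne_zero, not_false_eq_true,
    zero_pow, add_zero] at this
  exact E.c0 this.symm

/-- differentiability of `exp (i (2 Φ θ - a))` etc. along the exponential coordinate -/
theorem step5 {Φ q a pa Z pb m : ℂ → ℂ} {τ : ℂ} {ρ : ℝ} {k kz : ℤ} {u uz : ℂ → ℂ}
    (hΦ : Differentiable ℂ Φ) (hq : Differentiable ℂ q) (D : Pd Z pb m τ ρ k kz u uz)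
    (ha : DifferentiableOn ℂ a (ball τ ρ)) (hpa : DifferentiableOn ℂ pa (ball τ ρ))
    {F : ℂ → ℂ} (hF : DifferentiableOn ℂ F {z : ℂ | z.re < Real.log ρ / 6}) {z₀ : ℂ}
    (hz₀ : z₀.re < Real.log ρ / 6)
    (h1 : ∀ᶠ z in 𝓝 z₀, Z (Tt τ z) = exp (I * (2 * Φ (F z) - a (Tt τ z))))
    (h2 : ∀ᶠ z in 𝓝 z₀, pa (Tt τ z) + pb (Tt τ z) =
      2 * q (F z) * cos (Φ (F z) - a (Tt τ z))) :
    ∀ z : ℂ, z.re < Real.log ρ / 6 → Z (Tt τ z) = exp (I * (2 * Φ (F z) - a (Tt τ z))) ∧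
      pa (Tt τ z) + pb (Tt τ z) = 2 * q (F z) * cos (Φ (F z) - a (Tt τ z)) := by
  set P : Set ℂ := {z : ℂ | z.re < Real.log ρ / 6} with hP
  have hPo : IsOpen P := isOpen_re_lt' _
  have hPc : IsPreconnected P := (convex_re_lt _).isPreconnected
  have hmem : ∀ z ∈ P, Tt τ z ∈ ball τ ρ := fun z hz => (Tt_mem D.ρ0).2 hz
  have hT : DifferentiableOn ℂ (Tt τ) P := fun z _ =>
    (hasDerivAt_Tt τ z).differentiableAt.differentiableWithinAt
  have hZd : ∀ t ∈ ball τ ρ, t ≠ τ → DifferentiableAt ℂ Z t := by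
    intro t ht hne
    have h3 : DifferentiableAt ℂ (fun t => (t - τ) ^ kz * uz t) t :=
      ((differentiableAt_id.sub_const τ).zpow (Or.inl (sub_ne_zero.2 hne))).mul
        (D.duz.differentiableAt (isOpen_ball.mem_nhds ht))
    refine h3.congr_of_eventuallyEq ?_
    filter_upwards [isOpen_ball.mem_nhds ht, isOpen_ne.mem_nhds hne] with s hs hs1
    exact D.Zu s hs hs1
  have dZ : DifferentiableOn ℂ (fun z => Z (Tt τ z)) P := fun z hz =>
    ((hZd _ (hmem z hz) (Tt_ne τ z)).comp z (hasDerivAt_Tt τ z).differentiableAt).differentiableWithinAt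
  have da : DifferentiableOn ℂ (fun z => a (Tt τ z)) P := ha.comp hT hmem
  have dpa : DifferentiableOn ℂ (fun z => pa (Tt τ z)) P := hpa.comp hT hmem
  have dpb : DifferentiableOn ℂ (fun z => pb (Tt τ z)) P := fun z hz =>
    ((D.dpb _ (hmem z hz) (Tt_ne τ z)).comp z (hasDerivAt_Tt τ z).differentiableAt).differentiableWithinAt
  have dΦF : DifferentiableOn ℂ (fun z => Φ (F z)) P := hΦ.comp_differentiableOn hF
  have dqF : DifferentiableOn ℂ (fun z => q (F z)) P := hq.comp_differentiableOn hF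
  have e1 : EqOn (fun z => Z (Tt τ z)) (fun z => exp (I * (2 * Φ (F z) - a (Tt τ z)))) P := by
    refine AnalyticOnNhd.eqOn_of_preconnected_of_eventuallyEq (dZ.analyticOnNhd hPo) ?_ hPc hz₀ h1
    exact (((dΦF.const_mul 2).sub da).const_mul I).cexp.analyticOnNhd hPo
  have e2 : EqOn (fun z => pa (Tt τ z) + pb (Tt τ z))
      (fun z => 2 * q (F z) * cos (Φ (F z) - a (Tt τ z))) P := by
    refine AnalyticOnNhd.eqOn_of_preconnected_of_eventuallyEq
      ((dpa.add dpb).analyticOnNhd hPo) ?_ hPc hz₀ h2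
    exact ((dqF.const_mul 2).mul (dΦF.sub da).ccos).analyticOnNhd hPo
  exact fun z hz => ⟨e1 hz, e2 hz⟩

end Vale.Agent.P097.H456.Edge
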