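import Vale.Agent.P097.H456.Edge.Loc2

/-!
# P097 / Edge: local structure of a position, part 3 (no branching, extension)
-/

set_option linter.all false

open Complex Metric Filter Topology Set
open scoped ComplexConjugate

namespace Vale.Agent.P097.H456.Edge

open Vale.Agent.P097

/-- the lift is a function of `exp z` -/
theorem Lift.disc {Φ q a pa Z pb m : ℂ → ℂ} {c τ : ℂ} {ρ : ℝ} {k kz : ℤ} {u uz v : ℂ → ℂ}
    {ω : ℂ} {F : ℂ → ℂ} (D : Pd Z pb m τ ρ k kz u uz)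
    (dv : DifferentiableOn ℂ v (ball τ ρ))
    (L : Lift Φ q a pa Z pb τ ρ k v ω F) {n : ℕ} (hn : (n : ℤ) = k + 5) :
    ∃ Θ : ℂ → ℂ, (∀ s : ℂ, ‖s‖ < Real.exp (Real.log ρ / 6) →
        HasDerivAt Θ (ω * (6 * s ^ n * v (τ + s ^ 6))) s) ∧
      (∀ s : ℂ, ‖s‖ < Real.exp (Real.log ρ / 6) → τ + s ^ 6 ∈ ball τ ρ) ∧
      ∀ z : ℂ, z.re < Real.log ρ / 6 → F z = Θ (exp z) := by
  have hρ := D.ρ0
  set σ := Real.exp (Real.log ρ / 6) with hσ
  have hσ0 : 0 < σ := Real.exp_pos _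
  have hσ6 : σ ^ 6 = ρ := by
    rw [hσ, ← Real.exp_nat_mul]
    push_cast
    rw [mul_div_cancel₀ _ (by norm_num : (6 : ℝ) ≠ 0), Real.exp_log hρ]
  have hmem : ∀ s : ℂ, ‖s‖ < σ → τ + s ^ 6 ∈ ball τ ρ := by
    intro s hs
    rw [mem_ball, dist_eq_norm, add_sub_cancel_left, norm_pow, ← hσ6]
    exact pow_lt_pow_left₀ hs (norm_nonneg _) (by norm_num)
  have hd : DifferentiableOn ℂ (fun s => ω * (6 * s ^ n * v (τ + s ^ 6))) (ball 0 σ) := by
    have h1 : DifferentiableOn ℂ (fun s : ℂ => v (τ + s ^ 6)) (ball 0 σ) :=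
      dv.comp (by fun_prop) (fun s hs => hmem s (mem_ball_zero_iff.1 hs))
    have h2 : DifferentiableOn ℂ (fun s : ℂ => 6 * s ^ n) (ball 0 σ) := by fun_prop
    exact (h2.mul h1).const_mul ω
  set z₁ : ℂ := ((Real.log ρ / 6 - 1 : ℝ) : ℂ) with hz₁
  have hz₁r : z₁.re < Real.log ρ / 6 := by rw [hz₁, ofReal_re]; linarith
  obtain ⟨Θ, hΘ1, hΘ⟩ := hd.isExactOn_ball.with_val_at (exp z₁) (F z₁)
  refine ⟨Θ, fun s hs => hΘ s (mem_ball_zero_iff.2 hs), hmem, fun z hz => ?_⟩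
  have hexp : ∀ z : ℂ, z.re < Real.log ρ / 6 → exp z ∈ ball (0 : ℂ) σ := by
    intro z hz
    rw [mem_ball_zero_iff, Complex.norm_exp, hσ]
    exact Real.exp_lt_exp.2 hz
  have hnC : ((k : ℂ) + 6) = (n : ℂ) + 1 := by
    have : ((n : ℤ) : ℂ) = ((k + 5 : ℤ) : ℂ) := by rw [hn]
    push_cast at this
    rw [this]; ring
  have h1 := const_of_deriv (convex_re_lt (Real.log ρ / 6)) (isOpen_re_lt' (Real.log ρ / 6))
    (f := fun z => F z - Θ (exp z)) (fun s hs => by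
      have h2 := (L.dF s hs).sub ((hΘ (exp s) (hexp s hs)).comp s (hasDerivAt_exp s))
      have h3 : ω * (6 * exp (((k : ℂ) + 6) * s) * v (Tt τ s)) -
          ω * (6 * exp s ^ n * v (τ + exp s ^ 6)) * exp s = 0 := by
        have h4 : exp (((k : ℂ) + 6) * s) = exp s ^ n * exp s := by
          rw [hnC, ← exp_nat_mul, ← exp_add]; congr 1; ring
        have h5 : Tt τ s = τ + exp s ^ 6 := by
          unfold Tt
          rw [← exp_nat_mul]; norm_num
        rw [h4, h5]; ring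
      rw [h3] at h2
      exact h2) hz hz₁r
  simp only [hΘ1, sub_self] at h1
  exact sub_eq_zero.1 h1

/-- **no branching**: the exponent is a multiple of `6` -/
theorem Lift.dvd {Φ q a pa Z pb m : ℂ → ℂ} {c τ : ℂ} {ρ : ℝ} {k kz : ℤ} {u uz v : ℂ → ℂ} {ω : ℂ}
    {F : ℂ → ℂ} (E : Ent Φ q c) (D : Pd Z pb m τ ρ k kz u uz)
    (ha : DifferentiableOn ℂ a (ball τ ρ)) (dv : DifferentiableOn ℂ v (ball τ ρ))
    (v0 : ∀ t ∈ ball τ ρ, v t ≠ 0) (L : Lift Φ q a pa Z pb τ ρ k v ω F) {n : ℕ}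
    (hn : (n : ℤ) = k + 5) {z₁ : ℂ} (hz₁ : z₁.re < Real.log ρ / 6)
    (hcos : cos (Φ (F z₁) - a (Tt τ z₁)) ≠ 0) : 6 ∣ n + 1 := by
  obtain ⟨Θ, hΘ, hmem, hFΘ⟩ := L.disc (c := c) D dv hn
  have hρ := D.ρ0
  set σ := Real.exp (Real.log ρ / 6) with hσ
  have hσ0 : 0 < σ := Real.exp_pos _
  have hω0 : ω ≠ 0 := by
    intro h
    have := L.ω6
    rw [h] at this; norm_num at this
  set ζ : ℂ := exp (2 * Real.pi * I / (6 : ℕ)) with hζ
  have hprim : IsPrimitiveRoot ζ 6 := Complex.isPrimitiveRoot_exp 6 (by norm_num)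
  have hζ6 : ζ ^ 6 = 1 := hprim.pow_eq_one
  have hζn : ‖ζ‖ = 1 := by
    have h1 : ‖ζ‖ ^ 6 = 1 := by rw [← norm_pow, hζ6, norm_one]
    exact (pow_eq_one_iff_of_nonneg (norm_nonneg _) (by norm_num)).1 h1
  set η : ℂ := ζ ^ (n + 1) with hη
  by_contra hnd
  have hη1 : η ≠ 1 := fun h => hnd (hprim.dvd_of_pow_eq_one _ h)
  set Θ₀ : ℂ := Θ 0 with hΘ₀
  have h0σ : ‖(0 : ℂ)‖ < σ := by rw [norm_zero]; exact hσ0
  -- the symmetry
  have hsym : ∀ s : ℂ, ‖s‖ < σ → Θ (ζ * s) = Θ₀ + η * (Θ s - Θ₀) := by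
    intro s hs
    have h1 := const_of_deriv (convex_ball (0 : ℂ) σ) isOpen_ball
      (f := fun s => Θ (ζ * s) - η * Θ s) (fun x hx => by
        have hx' : ‖x‖ < σ := mem_ball_zero_iff.1 hx
        have hx2 : ‖ζ * x‖ < σ := by rw [norm_mul, hζn, one_mul]; exact hx'
        have h2 : HasDerivAt (fun s => Θ (ζ * s))
            (ω * (6 * (ζ * x) ^ n * v (τ + (ζ * x) ^ 6)) * (ζ * 1)) x :=
          (hΘ _ hx2).comp x ((hasDerivAt_id x).const_mul ζ)
        have h3 := h2.sub ((hΘ x hx').const_mul η)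
        have h4 : ω * (6 * (ζ * x) ^ n * v (τ + (ζ * x) ^ 6)) * (ζ * 1) -
            η * (ω * (6 * x ^ n * v (τ + x ^ 6))) = 0 := by
          rw [mul_pow ζ x 6, hζ6, one_mul, mul_pow ζ x n, hη, pow_succ]; ring
        rw [h4] at h3
        exact h3) (mem_ball_zero_iff.2 hs) (mem_ball_self hσ0)
    simp only [mul_zero] at h1
    linear_combination h1
  -- relations on the disc
  have hrel : ∀ s : ℂ, ‖s‖ < σ → s ≠ 0 → Z (τ + s ^ 6) = exp (I * (2 * Φ (Θ s) - a (τ + s ^ 6))) ∧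
      pa (τ + s ^ 6) + pb (τ + s ^ 6) = 2 * q (Θ s) * cos (Φ (Θ s) - a (τ + s ^ 6)) := by
    intro s hs hs0
    have hz : (Complex.log s).re < Real.log ρ / 6 := by
      rw [Complex.log_re]
      exact (Real.log_lt_iff_lt_exp (norm_pos_iff.2 hs0)).2 hs
    have h1 := hFΘ _ hz
    rw [exp_log hs0] at h1
    have h2 : Tt τ (Complex.log s) = τ + s ^ 6 := by
      unfold Tt
      rw [show (6 : ℂ) * Complex.log s = ((6 : ℕ) : ℂ) * Complex.log s by norm_num, exp_nat_mul,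
        exp_log hs0]
    have h3 := L.r1 _ hz
    have h4 := L.r2 _ hz
    rw [h1, h2] at h3 h4
    exact ⟨h3, h4⟩
  -- `Y`
  set Y : ℂ → ℂ := fun s => Θ s - Θ₀ with hY
  have hΘd : DifferentiableOn ℂ Θ (ball 0 σ) := fun s hs =>
    (hΘ s (mem_ball_zero_iff.1 hs)).differentiableAt.differentiableWithinAt
  have hΘan : AnalyticOnNhd ℂ Θ (ball 0 σ) := hΘd.analyticOnNhd isOpen_ball
  have h0m : (0 : ℂ) ∈ ball (0 : ℂ) σ := mem_ball_self hσ0
  have hYa : AnalyticAt ℂ Y 0 := (hΘan 0 h0m).sub analyticAt_const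
  have hY0 : Y 0 = 0 := by simp [hY, hΘ₀]
  have hopen : 𝓝 (0 : ℂ) ≤ map Y (𝓝 0) := by
    rcases hYa.eventually_constant_or_nhds_le_map_nhds with h | h
    · exfalso
      -- derivative is nonzero off zero
      have h1 : ∀ᶠ s in 𝓝 (0 : ℂ), ∀ᶠ x in 𝓝 s, Y x = Y 0 := eventually_eventually_nhds.2 h
      have h2 : ∀ᶠ s in 𝓝[≠] (0 : ℂ), (∀ᶠ x in 𝓝 s, Y x = Y 0) ∧ s ∈ ball (0 : ℂ) σ ∧ s ≠ 0 := by
        filter_upwards [h1.filter_mono nhdsWithin_le_nhds,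
          mem_nhdsWithin_of_mem_nhds (isOpen_ball.mem_nhds h0m), self_mem_nhdsWithin]
          with s hs1 hs2 hs3 using ⟨hs1, hs2, hs3⟩
      obtain ⟨s, hs1, hs2, hs3⟩ := h2.exists
      have h3 : HasDerivAt Y (ω * (6 * s ^ n * v (τ + s ^ 6))) s :=
        (hΘ s (mem_ball_zero_iff.1 hs2)).sub_const _
      have h4 : HasDerivAt Y 0 s := (hasDerivAt_const s (Y 0)).congr_of_eventuallyEq hs1
      have h5 := h3.unique h4
      exact (mul_ne_zero hω0 (mul_ne_zero (mul_ne_zero (by norm_num) (pow_ne_zero _ hs3))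
        (v0 _ (hmem s (mem_ball_zero_iff.1 hs2))))) h5
    · rwa [hY0] at h
  -- transfer principle
  have htr : ∀ p : ℂ → Prop, (∀ᶠ s in 𝓝 (0 : ℂ), p (Y s)) → ∀ᶠ y in 𝓝 (0 : ℂ), p y := by
    intro p hp
    exact hopen hp
  have hball : ∀ᶠ s in 𝓝 (0 : ℂ), ‖s‖ < σ := by
    filter_upwards [isOpen_ball.mem_nhds h0m] with s hs using mem_ball_zero_iff.1 hs
  -- the function `φ`
  set φ : ℂ → ℂ := fun y => Φ (Θ₀ + η * y) - Φ (Θ₀ + y) with hφ
  have hφd : ∀ y, HasDerivAt φ (deriv Φ (Θ₀ + η * y) * η - deriv Φ (Θ₀ + y)) y := by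
    intro y
    have h1 : HasDerivAt (fun y => Θ₀ + η * y) η y := by
      have := ((hasDerivAt_id y).const_mul η).const_add Θ₀
      rwa [mul_one] at this
    have h2 : HasDerivAt (fun y => Θ₀ + y) 1 y := (hasDerivAt_id y).const_add Θ₀
    have h3 : HasDerivAt (fun y => Φ (Θ₀ + η * y)) (deriv Φ (Θ₀ + η * y) * η) y :=
      (E.dΦ (Θ₀ + η * y)).hasDerivAt.comp y h1
    have h4 : HasDerivAt (fun y => Φ (Θ₀ + y)) (deriv Φ (Θ₀ + y) * 1) y :=
      (E.dΦ (Θ₀ + y)).hasDerivAt.comp y h2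
    rw [mul_one] at h4
    exact h3.sub h4
  have hφ0 : φ 0 = 0 := by simp [hφ]
  have hφexp : ∀ᶠ y in 𝓝 (0 : ℂ), exp (I * (2 * φ y)) = 1 := by
    refine htr (fun y => exp (I * (2 * φ y)) = 1) ?_
    filter_upwards [hball] with s hs
    by_cases hs0 : s = 0
    · rw [hs0, hY0, hφ0]; simp
    · have hs2 : ‖ζ * s‖ < σ := by rw [norm_mul, hζn, one_mul]; exact hs
      have hζ0 : ζ ≠ 0 := by intro h; rw [h, norm_zero] at hζn; exact zero_ne_one hζn
      have h1 := (hrel s hs hs0).1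
      have h2 := (hrel (ζ * s) hs2 (mul_ne_zero hζ0 hs0)).1
      rw [mul_pow, hζ6, one_mul, h1, hsym s hs] at h2
      have h3 : φ (Y s) = Φ (Θ₀ + η * (Θ s - Θ₀)) - Φ (Θ s) := by
        simp only [hφ, hY]
        congr 2
        ring
      rw [h3]
      have h4 : I * (2 * (Φ (Θ₀ + η * (Θ s - Θ₀)) - Φ (Θ s))) =
          I * (2 * Φ (Θ₀ + η * (Θ s - Θ₀)) - a (τ + s ^ 6)) -
            I * (2 * Φ (Θ s) - a (τ + s ^ 6)) := by ring
      rw [h4, exp_sub, ← h2, div_self (exp_ne_zero _)]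
  have hφz : ∀ᶠ y in 𝓝 (0 : ℂ), φ y = 0 := by
    obtain ⟨r, hr, hrb⟩ := Metric.eventually_nhds_iff_ball.1 (eventually_eventually_nhds.2 hφexp)
    have hd0 : ∀ y ∈ ball (0 : ℂ) r, HasDerivAt φ 0 y := by
      intro y hy
      have h1 := (((hφd y).const_mul 2).const_mul I).cexp
      have h2 : HasDerivAt (fun y => exp (I * (2 * φ y))) 0 y :=
        (hasDerivAt_const y (1 : ℂ)).congr_of_eventuallyEq (hrb y hy)
      have h3 := h1.unique h2
      rcases mul_eq_zero.1 h3 with h4 | h4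
      · exact absurd h4 (exp_ne_zero _)
      · rcases mul_eq_zero.1 h4 with h5 | h5
        · exact absurd h5 I_ne_zero
        · rcases mul_eq_zero.1 h5 with h6 | h6
          · norm_num at h6
          · have := hφd y
            rwa [h6] at this
    filter_upwards [isOpen_ball.mem_nhds (mem_ball_self hr)] with y hy
    rw [const_of_deriv (convex_ball (0 : ℂ) r) isOpen_ball hd0 hy (mem_ball_self hr), hφ0]
  have hΦ1 : deriv Φ Θ₀ = 0 := by
    have h1 := hφd 0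
    have h2 : HasDerivAt φ 0 0 := (hasDerivAt_const (0 : ℂ) (0 : ℂ)).congr_of_eventuallyEq hφz
    have h3 := h1.unique h2
    simp only [mul_zero, add_zero] at h3
    have h4 : (η - 1) * deriv Φ Θ₀ = 0 := by linear_combination h3
    exact (mul_eq_zero.1 h4).resolve_left (sub_ne_zero.2 hη1)
  -- the function `q`
  set χ : ℂ → ℂ := fun y => q (Θ₀ + η * y) - q (Θ₀ + y) with hχ
  have hχd : ∀ y, HasDerivAt χ (deriv q (Θ₀ + η * y) * η - deriv q (Θ₀ + y)) y := by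
    intro y
    have h1 : HasDerivAt (fun y => Θ₀ + η * y) η y := by
      have := ((hasDerivAt_id y).const_mul η).const_add Θ₀
      rwa [mul_one] at this
    have h2 : HasDerivAt (fun y => Θ₀ + y) 1 y := (hasDerivAt_id y).const_add Θ₀
    have h3 : HasDerivAt (fun y => q (Θ₀ + η * y)) (deriv q (Θ₀ + η * y) * η) y :=
      (E.dq (Θ₀ + η * y)).hasDerivAt.comp y h1
    have h4 : HasDerivAt (fun y => q (Θ₀ + y)) (deriv q (Θ₀ + y) * 1) y :=
      (E.dq (Θ₀ + y)).hasDerivAt.comp y h2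
    rw [mul_one] at h4
    exact h3.sub h4
  have hχ0 : χ 0 = 0 := by simp [hχ]
  -- the cosine
  set Cs : ℂ → ℂ := fun s => cos (Φ (Θ s) - a (τ + s ^ 6)) with hCs
  have hCsd : DifferentiableOn ℂ Cs (ball 0 σ) := by
    have h1 : DifferentiableOn ℂ (fun s => Φ (Θ s)) (ball 0 σ) := E.dΦ.comp_differentiableOn hΘd
    have h2 : DifferentiableOn ℂ (fun s : ℂ => a (τ + s ^ 6)) (ball 0 σ) :=
      ha.comp (by fun_prop) (fun s hs => hmem s (mem_ball_zero_iff.1 hs))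
    exact (h1.sub h2).ccos
  have hCsan : AnalyticOnNhd ℂ Cs (ball 0 σ) := hCsd.analyticOnNhd isOpen_ball
  have hCsne : ∀ᶠ s in 𝓝[≠] (0 : ℂ), Cs s ≠ 0 := by
    rcases (hCsan 0 h0m).eventually_eq_zero_or_eventually_ne_zero with h | h
    · exfalso
      have h1 := hCsan.eqOn_zero_of_preconnected_of_eventuallyEq_zero
        (convex_ball (0 : ℂ) σ).isPreconnected h0m h
      have h2 : exp z₁ ∈ ball (0 : ℂ) σ := by
        rw [mem_ball_zero_iff, Complex.norm_exp, hσ]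
        exact Real.exp_lt_exp.2 hz₁
      have h3 := h1 h2
      simp only [hCs, Pi.zero_apply] at h3
      rw [← hFΘ z₁ hz₁] at h3
      have h4 : τ + exp z₁ ^ 6 = Tt τ z₁ := by
        unfold Tt; rw [← exp_nat_mul]; norm_num
      rw [h4] at h3
      exact hcos h3
    · exact h
  have hχz : ∀ᶠ y in 𝓝 (0 : ℂ), χ y = 0 := by
    refine htr (fun y => χ y = 0) ?_
    have hYc : Tendsto Y (𝓝 0) (𝓝 0) := by
      have := hYa.continuousAt.tendsto
      rwa [hY0] at this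
    have h1 : ∀ᶠ s in 𝓝 (0 : ℂ), s ≠ 0 → Cs s ≠ 0 := eventually_nhdsWithin_iff.1 hCsne
    filter_upwards [hball, hYc.eventually hφz, h1] with s hs hφs hcs
    by_cases hs0 : s = 0
    · rw [hs0, hY0, hχ0]
    · have hs2 : ‖ζ * s‖ < σ := by rw [norm_mul, hζn, one_mul]; exact hs
      have hζ0 : ζ ≠ 0 := by intro h; rw [h, norm_zero] at hζn; exact zero_ne_one hζn
      have h2 := (hrel s hs hs0).2
      have h3 := (hrel (ζ * s) hs2 (mul_ne_zero hζ0 hs0)).2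
      rw [mul_pow, hζ6, one_mul, h2, hsym s hs] at h3
      have h4 : Θ₀ + (Θ s - Θ₀) = Θ s := by ring
      have h5 : Φ (Θ₀ + η * (Θ s - Θ₀)) = Φ (Θ s) := by
        have h6 : Φ (Θ₀ + η * (Θ s - Θ₀)) - Φ (Θ₀ + (Θ s - Θ₀)) = 0 := hφs
        rw [h4] at h6
        exact sub_eq_zero.1 h6
      rw [h5] at h3
      have h7 : Cs s * (q (Θ₀ + η * (Θ s - Θ₀)) - q (Θ s)) = 0 := by
        simp only [hCs]
        linear_combination -h3 / 2
      have h8 := (mul_eq_zero.1 h7).resolve_left (hcs hs0)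
      show q (Θ₀ + η * (Θ s - Θ₀)) - q (Θ₀ + (Θ s - Θ₀)) = 0
      rw [h4]; exact h8
  have hq1 : deriv q Θ₀ = 0 := by
    have h1 := hχd 0
    have h2 : HasDerivAt χ 0 0 := (hasDerivAt_const (0 : ℂ) (0 : ℂ)).congr_of_eventuallyEq hχz
    have h3 := h1.unique h2
    simp only [mul_zero, add_zero] at h3
    have h4 : (η - 1) * deriv q Θ₀ = 0 := by linear_combination h3
    exact (mul_eq_zero.1 h4).resolve_left (sub_ne_zero.2 hη1)
  exact E.reg Θ₀ ⟨hΦ1, hq1⟩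

end Vale.Agent.P097.H456.Edge
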