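import Vale.Agent.P097.H456.Edge.Loc3

/-!
# P097 / Edge: local extension of a position of an entire curve
-/

set_option linter.all false

open Complex Metric Filter Topology Set
open scoped ComplexConjugate

namespace Vale.Agent.P097.H456.Edge

open Vale.Agent.P097

/-- a nonempty open set condition holds off a point -/
theorem exists_ne_of_open {V : Set ℂ} (hV : IsOpen V) {f : ℂ → ℂ} (hf : ContinuousOn f V) {t₀ : ℂ}
    (ht : t₀ ∈ V) (hft : f t₀ ≠ 0) (τ : ℂ) : ∃ t ∈ V, t ≠ τ ∧ f t ≠ 0 := by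
  have h1 : ∀ᶠ t in 𝓝 t₀, f t ≠ 0 := (hf.continuousAt (hV.mem_nhds ht)).eventually_ne hft
  have h2 : ∀ᶠ t in 𝓝 t₀, t ∈ V := hV.mem_nhds ht
  by_cases h : t₀ = τ
  · have h3 : ∀ᶠ t in 𝓝[≠] t₀, t ∈ V ∧ t ≠ t₀ ∧ f t ≠ 0 := by
      filter_upwards [h1.filter_mono nhdsWithin_le_nhds, h2.filter_mono nhdsWithin_le_nhds,
        self_mem_nhdsWithin] with t a b c using ⟨b, c, a⟩
    obtain ⟨t, a, b, c⟩ := h3.exists
    exact ⟨t, a, h ▸ b, c⟩
  · exact ⟨t₀, ht, h, hft⟩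

/-- the local extension, on a good punctured disc -/
theorem ext_core {Φ q a pa Z pb m : ℂ → ℂ} {c τ : ℂ} {ρ : ℝ} {k kz : ℤ} {u uz : ℂ → ℂ}
    (E : Ent Φ q c) (D : Pd Z pb m τ ρ k kz u uz)
    (ha : DifferentiableOn ℂ a (ball τ ρ)) (hpa : DifferentiableOn ℂ pa (ball τ ρ))
    {V : Set ℂ} (hV : IsOpen V) (hVc : IsPreconnected V) (hVb : V ⊆ ball τ ρ) {θ₀ : ℂ → ℂ}
    (hθ : DifferentiableOn ℂ θ₀ V) (hR : ∀ t ∈ V, Rl Φ q a pa Z pb m θ₀ t)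
    (hcos : ∃ t ∈ V, cos (Φ (θ₀ t) - a t) ≠ 0) :
    ∃ θ : ℂ → ℂ, DifferentiableOn ℂ θ (ball τ ρ) ∧ (∀ t ∈ V, θ t = θ₀ t) ∧
      ∀ t ∈ ball τ ρ, t ≠ τ → Rl Φ q a pa Z pb m θ t := by
  have hρ := D.ρ0
  obtain ⟨v, dv, v0, v6⟩ := exists_v hρ D.du D.u0
  obtain ⟨t₁, ht₁, hc₁⟩ := hcos
  have hcc : ContinuousOn (fun t => cos (Φ (θ₀ t) - a t)) V :=
    ((E.dΦ.comp_differentiableOn hθ).sub (ha.mono hVb)).ccos.continuousOn
  obtain ⟨t₀, ht₀, hne, hc₀⟩ := exists_ne_of_open hV hcc ht₁ hc₁ τ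
  obtain ⟨z₀, hz₀⟩ := exists_Tt hne
  have hz₀V : Tt τ z₀ ∈ V := by rw [hz₀]; exact ht₀
  obtain ⟨ω, F, L, hFe⟩ := exists_lift E.dΦ E.dq D ha hpa dv v0 v6 hV hVb hθ hR hz₀V
  have hz₀P : z₀.re < Real.log ρ / 6 := (Tt_mem hρ).1 (hVb hz₀V)
  have hk := L.le E D ha dv v0
  obtain ⟨n, hn⟩ : ∃ n : ℕ, (n : ℤ) = k + 5 := ⟨(k + 5).toNat, Int.toNat_of_nonneg (by omega)⟩
  have hF0 : F z₀ = θ₀ t₀ := by rw [hFe.self_of_nhds, hz₀]
  have hdvd := L.dvd E D ha dv v0 hn hz₀P (by rw [hF0, hz₀]; exact hc₀)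
  obtain ⟨j', hj'⟩ := hdvd
  obtain ⟨j, rfl⟩ : ∃ j, j' = j + 1 := ⟨j' - 1, by omega⟩
  have hkj : k = 6 * (j : ℤ) := by omega
  have hω0 : ω ≠ 0 := by
    intro h
    have := L.ω6
    rw [h] at this; norm_num at this
  -- the primitive
  have hfd : DifferentiableOn ℂ (fun t => ω * ((t - τ) ^ j * v t)) (ball τ ρ) := by
    have h1 : DifferentiableOn ℂ (fun t : ℂ => (t - τ) ^ j) (ball τ ρ) := by fun_prop
    exact (h1.mul dv).const_mul ω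
  obtain ⟨θ, hθt, hθd⟩ := hfd.isExactOn_ball.with_val_at t₀ (θ₀ t₀)
  have hθD : DifferentiableOn ℂ θ (ball τ ρ) := fun t ht =>
    (hθd t ht).differentiableAt.differentiableWithinAt
  have hFθ : ∀ z : ℂ, z.re < Real.log ρ / 6 → F z = θ (Tt τ z) := by
    intro z hz
    have h1 := const_of_deriv (convex_re_lt (Real.log ρ / 6)) (isOpen_re_lt' (Real.log ρ / 6))
      (f := fun z => F z - θ (Tt τ z)) (fun s hs => by
        have h2 := (L.dF s hs).sub ((hθd (Tt τ s) ((Tt_mem hρ).2 hs)).comp s (hasDerivAt_Tt τ s))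
        have h3 : ω * (6 * exp (((k : ℂ) + 6) * s) * v (Tt τ s)) -
            ω * ((Tt τ s - τ) ^ j * v (Tt τ s)) * (6 * exp (6 * s)) = 0 := by
          have h4 : exp (((k : ℂ) + 6) * s) = exp (6 * s) ^ j * exp (6 * s) := by
            rw [← exp_nat_mul, ← exp_add, hkj]; congr 1; push_cast; ring
          rw [h4, Tt_sub]; ring
        rw [h3] at h2
        exact h2) hz hz₀P
    simp only [hF0, hz₀, hθt, sub_self] at h1
    exact sub_eq_zero.1 h1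
  refine ⟨θ, hθD, ?_, ?_⟩
  · -- agreement on `V`
    have hev : ∀ᶠ t in 𝓝 t₀, θ t = θ₀ t := by
      have hTa : AnalyticAt ℂ (Tt τ) z₀ := by unfold Tt; fun_prop
      have hst := hTa.hasStrictDerivAt
      have hd : deriv (Tt τ) z₀ ≠ 0 := by
        rw [(hasDerivAt_Tt τ z₀).deriv]
        exact mul_ne_zero (by norm_num) (exp_ne_zero _)
      have hmap := hst.map_nhds_eq hd
      rw [hz₀] at hmap
      rw [← hmap, eventually_map]
      filter_upwards [hFe, (isOpen_re_lt' (Real.log ρ / 6)).mem_nhds hz₀P] with z h1 h2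
      rw [← hFθ z h2, h1]
    exact (hθD.mono hVb).analyticOnNhd hV |>.eqOn_of_preconnected_of_eventuallyEq
      (hθ.analyticOnNhd hV) hVc ht₀ hev
  · intro t ht hne'
    obtain ⟨z, hz⟩ := exists_Tt hne'
    have hzP : z.re < Real.log ρ / 6 := (Tt_mem hρ).1 (by rw [hz]; exact ht)
    have h1 := L.r1 z hzP
    have h2 := L.r2 z hzP
    rw [hFθ z hzP, hz] at h1 h2
    refine ⟨h1, h2, ?_⟩
    rw [(hθd t ht).deriv, mul_pow, mul_pow, L.ω6, v6 t ht, D.mu t ht hne', hkj, one_mul]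
    congr 1
    rw [← pow_mul, mul_comm j 6]
    have : (6 * (j : ℤ)) = ((6 * j : ℕ) : ℤ) := by push_cast; ring
    rw [this, zpow_natCast]

/-- **local extension** of a position of an entire curve -/
theorem local_ext {Φ q a pa Z pb m : ℂ → ℂ} {c τ : ℂ} {ρ₀ : ℝ} (E : Ent Φ q c) (hρ₀ : 0 < ρ₀)
    (ha : DifferentiableOn ℂ a (ball τ ρ₀)) (hpa : DifferentiableOn ℂ pa (ball τ ρ₀))
    (mZ : MeromorphicAt Z τ) (mpb : MeromorphicAt pb τ) (mm : MeromorphicAt m τ) :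
    ∃ ρ > 0, ρ ≤ ρ₀ ∧ ∀ (V : Set ℂ) (θ₀ : ℂ → ℂ), IsOpen V → IsPreconnected V → V ⊆ ball τ ρ →
      DifferentiableOn ℂ θ₀ V → (∀ t ∈ V, Rl Φ q a pa Z pb m θ₀ t) →
      (∃ t ∈ V, cos (Φ (θ₀ t) - a t) ≠ 0) → (∃ t ∈ V, deriv θ₀ t ≠ 0) →
      ∃ θ : ℂ → ℂ, DifferentiableOn ℂ θ (ball τ ρ) ∧ (∀ t ∈ V, θ t = θ₀ t) ∧
        ∀ t ∈ ball τ ρ, t ≠ τ → Rl Φ q a pa Z pb m θ t := by
  rcases mm.eventually_eq_zero_or_eventually_ne_zero with hm | hm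
  · -- `m = 0` near `τ` : impossible
    obtain ⟨r, hr, hrb⟩ := Metric.eventually_nhds_iff_ball.1 (eventually_nhdsWithin_iff.1 hm)
    refine ⟨min r ρ₀, lt_min hr hρ₀, min_le_right _ _, ?_⟩
    rintro V θ₀ hV hVc hVb hθ hR - ⟨t₁, ht₁, hd₁⟩
    exfalso
    obtain ⟨t, ht, hne, hd⟩ := exists_ne_of_open hV (hθ.deriv hV).continuousOn ht₁ hd₁ τ
    have h1 := (hR t ht).r6
    rw [hrb t (ball_subset_ball (min_le_left _ _) (hVb ht)) hne] at h1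
    exact hd (pow_eq_zero_iff (by norm_num) |>.1 h1)
  rcases mZ.eventually_eq_zero_or_eventually_ne_zero with hZ | hZ
  · obtain ⟨r, hr, hrb⟩ := Metric.eventually_nhds_iff_ball.1 (eventually_nhdsWithin_iff.1 hZ)
    refine ⟨min r ρ₀, lt_min hr hρ₀, min_le_right _ _, ?_⟩
    rintro V θ₀ hV hVc hVb hθ hR - ⟨t₁, ht₁, hd₁⟩
    exfalso
    obtain ⟨t, ht, hne, hd⟩ := exists_ne_of_open hV (hθ.deriv hV).continuousOn ht₁ hd₁ τ
    have h1 := (hR t ht).r1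
    rw [hrb t (ball_subset_ball (min_le_left _ _) (hVb ht)) hne] at h1
    exact exp_ne_zero _ h1.symm
  obtain ⟨u, hu, hu0, hue⟩ := (meromorphicOrderAt_ne_top_iff mm).1
    ((meromorphicOrderAt_ne_top_iff_eventually_ne_zero mm).2 hm)
  obtain ⟨uz, huz, huz0, huze⟩ := (meromorphicOrderAt_ne_top_iff mZ).1
    ((meromorphicOrderAt_ne_top_iff_eventually_ne_zero mZ).2 hZ)
  set k : ℤ := (meromorphicOrderAt m τ).untop₀
  set kz : ℤ := (meromorphicOrderAt Z τ).untop₀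
  have hall : ∀ᶠ t in 𝓝 τ, (AnalyticAt ℂ u t ∧ u t ≠ 0) ∧ (AnalyticAt ℂ uz t ∧ uz t ≠ 0) ∧
      (t ≠ τ → m t = (t - τ) ^ k * u t ∧ Z t = (t - τ) ^ kz * uz t ∧ DifferentiableAt ℂ pb t) := by
    have h1 := eventually_nhdsWithin_iff.1 hue
    have h2 := eventually_nhdsWithin_iff.1 huze
    have h3 := eventually_nhdsWithin_iff.1 mpb.eventually_analyticAt
    filter_upwards [hu.eventually_analyticAt, hu.continuousAt.eventually_ne hu0,
      huz.eventually_analyticAt, huz.continuousAt.eventually_ne huz0, h1, h2, h3]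
      with t e1 e2 e3 e4 e5 e6 e7
    exact ⟨⟨e1, e2⟩, ⟨e3, e4⟩, fun hne => ⟨e5 hne, e6 hne, (e7 hne).differentiableAt⟩⟩
  obtain ⟨r, hr, hrb⟩ := Metric.eventually_nhds_iff_ball.1 hall
  have hlt : 0 < min r ρ₀ := lt_min hr hρ₀
  have hsub : ball τ (min r ρ₀) ⊆ ball τ r := ball_subset_ball (min_le_left _ _)
  have hsub2 : ball τ (min r ρ₀) ⊆ ball τ ρ₀ := ball_subset_ball (min_le_right _ _)
  have D : Pd Z pb m τ (min r ρ₀) k kz u uz :=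
    ⟨hlt, fun t ht => (hrb t (hsub ht)).1.1.differentiableAt.differentiableWithinAt,
      fun t ht => (hrb t (hsub ht)).1.2, fun t ht hne => ((hrb t (hsub ht)).2.2 hne).1,
      fun t ht => (hrb t (hsub ht)).2.1.1.differentiableAt.differentiableWithinAt,
      fun t ht => (hrb t (hsub ht)).2.1.2, fun t ht hne => ((hrb t (hsub ht)).2.2 hne).2.1,
      fun t ht hne => ((hrb t (hsub ht)).2.2 hne).2.2⟩
  exact ⟨_, hlt, min_le_right _ _, fun V θ₀ hV hVc hVb hθ hR hcos _ =>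
    ext_core E D (ha.mono hsub2) (hpa.mono hsub2) hV hVc hVb hθ hR hcos⟩

end Vale.Agent.P097.H456.Edge
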