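import Vale.Agent.P097.H456.Edge.Loc4

/-!
# P097 / Edge: `θ' ^ 6` is a meromorphic expression in the lines
-/

set_option linter.all false

open Complex Metric Filter Topology Set
open scoped ComplexConjugate

namespace Vale.Agent.P097.H456.Edge

open Vale.Agent.P097

noncomputable section

/-- `e ^ (2 i δ)` -/
def Wq (a Z : ℂ → ℂ) (t : ℂ) : ℂ := Z t * exp (-(I * a t))

/-- `4 cos² δ` -/
def C2 (a Z : ℂ → ℂ) (t : ℂ) : ℂ := 2 + Wq a Z t + (Wq a Z t)⁻¹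

/-- `q(θ)²` -/
def K0 (a pa Z pb : ℂ → ℂ) (t : ℂ) : ℂ := (pa t + pb t) ^ 2 / C2 a Z t

/-- `(Φ ∘ θ)'` -/
def Ps (a Z : ℂ → ℂ) (t : ℂ) : ℂ := (deriv a t - I * (deriv Z t / Z t)) / 2

/-- `θ' ^ 6` -/
def M6 (c : ℂ) (a pa Z pb : ℂ → ℂ) (t : ℂ) : ℂ :=
  ((deriv (deriv (K0 a pa Z pb)) t / 2 - deriv (K0 a pa Z pb) t ^ 2 / (4 * K0 a pa Z pb t)) *
    Ps a Z t - deriv (K0 a pa Z pb) t / 2 * deriv (Ps a Z) t +
    K0 a pa Z pb t * Ps a Z t ^ 3) ^ 2 / (c ^ 2 * K0 a pa Z pb t)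

theorem mero_Wq {a Z : ℂ → ℂ} {t : ℂ} (ha : AnalyticAt ℂ a t) (hZ : MeromorphicAt Z t) :
    MeromorphicAt (Wq a Z) t :=
  hZ.mul ((analyticAt_const.mul ha).neg.cexp).meromorphicAt

theorem mero_C2 {a Z : ℂ → ℂ} {t : ℂ} (ha : AnalyticAt ℂ a t) (hZ : MeromorphicAt Z t) :
    MeromorphicAt (C2 a Z) t :=
  ((MeromorphicAt.const (2 : ℂ) t).add (mero_Wq ha hZ)).add (mero_Wq ha hZ).inv

theorem mero_K0 {a pa Z pb : ℂ → ℂ} {t : ℂ} (ha : AnalyticAt ℂ a t) (hpa : AnalyticAt ℂ pa t)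
    (hZ : MeromorphicAt Z t) (hpb : MeromorphicAt pb t) : MeromorphicAt (K0 a pa Z pb) t :=
  ((hpa.meromorphicAt.add hpb).pow 2).div (mero_C2 ha hZ)

theorem mero_Ps {a Z : ℂ → ℂ} {t : ℂ} (ha : AnalyticAt ℂ a t) (hZ : MeromorphicAt Z t) :
    MeromorphicAt (Ps a Z) t :=
  (ha.deriv.meromorphicAt.sub ((MeromorphicAt.const I t).mul (hZ.deriv.div hZ))).div
    (MeromorphicAt.const (2 : ℂ) t)

theorem mero_M6 {c : ℂ} {a pa Z pb : ℂ → ℂ} {t : ℂ} (ha : AnalyticAt ℂ a t)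
    (hpa : AnalyticAt ℂ pa t) (hZ : MeromorphicAt Z t) (hpb : MeromorphicAt pb t) :
    MeromorphicAt (M6 c a pa Z pb) t := by
  have k := mero_K0 ha hpa hZ hpb
  have s := mero_Ps ha hZ
  have h2 : MeromorphicAt (fun _ : ℂ => (2 : ℂ)) t := MeromorphicAt.const (2 : ℂ) t
  have h4 : MeromorphicAt (fun _ : ℂ => (4 : ℂ)) t := MeromorphicAt.const (4 : ℂ) t
  exact (((((k.deriv.deriv.div h2).sub ((k.deriv.pow 2).div (h4.mul k))).mul s).sub
    ((k.deriv.div h2).mul s.deriv)).add (k.mul (s.pow 3))).pow 2 |>.div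
      ((MeromorphicAt.const (c ^ 2) t).mul k)

/-- chain rule for `Wr` -/
theorem Wr_comp {Φ q θ : ℂ → ℂ} (dΦ : Differentiable ℂ Φ) (dq : Differentiable ℂ q) {V : Set ℂ}
    (hV : IsOpen V) (hθ : DifferentiableOn ℂ θ V) {t : ℂ} (ht : t ∈ V) :
    SC.Wr (fun t => Φ (θ t)) (fun t => q (θ t)) t = SC.Wr Φ q (θ t) * deriv θ t ^ 3 := by
  have hθt : ∀ s ∈ V, HasDerivAt θ (deriv θ s) s := fun s hs =>
    (hθ.differentiableAt (hV.mem_nhds hs)).hasDerivAt
  have key : ∀ f : ℂ → ℂ, Differentiable ℂ f → (∀ s ∈ V, deriv (fun t => f (θ t)) s =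
      deriv f (θ s) * deriv θ s) ∧ deriv (deriv (fun t => f (θ t))) t =
      deriv (deriv f) (θ t) * deriv θ t ^ 2 + deriv f (θ t) * deriv (deriv θ) t := by
    intro f hf
    have h1 : ∀ s ∈ V, deriv (fun t => f (θ t)) s = deriv f (θ s) * deriv θ s := fun s hs =>
      ((hf (θ s)).hasDerivAt.comp s (hθt s hs)).deriv
    refine ⟨h1, ?_⟩
    have h2 : deriv (fun t => f (θ t)) =ᶠ[𝓝 t] fun s => deriv f (θ s) * deriv θ s := by
      filter_upwards [hV.mem_nhds ht] with s hs using h1 s hs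
    rw [h2.deriv_eq]
    have h3 : HasDerivAt (deriv f) (deriv (deriv f) (θ t)) (θ t) :=
      ((differentiableOn_univ.1 (hf.differentiableOn.deriv isOpen_univ)) (θ t)).hasDerivAt
    have h4 : HasDerivAt (deriv θ) (deriv (deriv θ) t) t :=
      ((hθ.deriv hV).differentiableAt (hV.mem_nhds ht)).hasDerivAt
    have h5 := ((h3.comp t (hθt t ht)).mul h4).deriv
    have h6 : deriv (fun s => deriv f (θ s) * deriv θ s) t =
        deriv (deriv f) (θ t) * deriv θ t * deriv θ t + deriv f (θ t) * deriv (deriv θ) t := h5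
    rw [h6]; ring
  obtain ⟨p1, p2⟩ := key Φ dΦ
  obtain ⟨q1, q2⟩ := key q dq
  unfold SC.Wr
  rw [p2, q2, p1 t ht, q1 t ht]
  ring

/-- **the sixth power** of the derivative of a position -/
theorem r6_of {Φ q a pa Z pb θ : ℂ → ℂ} {c : ℂ} (E : Ent Φ q c) {V : Set ℂ} (hV : IsOpen V)
    (ha : DifferentiableOn ℂ a V) (hpa : DifferentiableOn ℂ pa V) (hθ : DifferentiableOn ℂ θ V)
    (r1 : ∀ t ∈ V, Z t = exp (I * (2 * Φ (θ t) - a t)))
    (r2 : ∀ t ∈ V, pa t + pb t = 2 * q (θ t) * cos (Φ (θ t) - a t))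
    (hc : ∀ t ∈ V, cos (Φ (θ t) - a t) ≠ 0) (hq : ∀ t ∈ V, q (θ t) ≠ 0) :
    ∀ t ∈ V, deriv θ t ^ 6 = M6 c a pa Z pb t := by
  set k : ℂ → ℂ := fun t => q (θ t) with hk
  set ψ : ℂ → ℂ := fun t => Φ (θ t) with hψ
  have dk : DifferentiableOn ℂ k V := E.dq.comp_differentiableOn hθ
  have dψ : DifferentiableOn ℂ ψ V := E.dΦ.comp_differentiableOn hθ
  have hkt : ∀ s ∈ V, HasDerivAt k (deriv k s) s := fun s hs =>
    (dk.differentiableAt (hV.mem_nhds hs)).hasDerivAt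
  have hψt : ∀ s ∈ V, HasDerivAt ψ (deriv ψ s) s := fun s hs =>
    (dψ.differentiableAt (hV.mem_nhds hs)).hasDerivAt
  have hkt' : ∀ s ∈ V, HasDerivAt (deriv k) (deriv (deriv k) s) s := fun s hs =>
    ((dk.deriv hV).differentiableAt (hV.mem_nhds hs)).hasDerivAt
  have hW : ∀ t ∈ V, Wq a Z t = exp (I * (2 * (ψ t - a t))) := by
    intro t ht
    unfold Wq
    rw [r1 t ht, ← exp_add]; congr 1; simp only [hψ]; ring
  have hC : ∀ t ∈ V, C2 a Z t = 4 * cos (ψ t - a t) ^ 2 := by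
    intro t ht
    unfold C2
    rw [hW t ht, ← exp_neg, Complex.cos]
    set x := exp ((ψ t - a t) * I) with hx
    have h1 : exp (I * (2 * (ψ t - a t))) = x ^ 2 := by
      rw [hx, ← exp_nat_mul]; congr 1; push_cast; ring
    have h2 : exp (-(I * (2 * (ψ t - a t)))) = exp (-(ψ t - a t) * I) ^ 2 := by
      rw [← exp_nat_mul]; congr 1; push_cast; ring
    have h3 : x * exp (-(ψ t - a t) * I) = 1 := by
      rw [hx, ← exp_add]; rw [show (ψ t - a t) * I + -(ψ t - a t) * I = 0 by ring, exp_zero]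
    rw [h1, h2]
    linear_combination (-2 : ℂ) * h3
  have hK : ∀ t ∈ V, K0 a pa Z pb t = k t ^ 2 := by
    intro t ht
    unfold K0
    rw [hC t ht, r2 t ht]
    have := hc t ht
    simp only [hk, hψ]
    field_simp
    ring
  have hKe : ∀ t ∈ V, K0 a pa Z pb =ᶠ[𝓝 t] fun s => k s ^ 2 := fun t ht => by
    filter_upwards [hV.mem_nhds ht] with s hs using hK s hs
  have hK1 : ∀ t ∈ V, deriv (K0 a pa Z pb) t = 2 * k t * deriv k t := by
    intro t ht
    rw [(hKe t ht).deriv_eq]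
    have := ((hkt t ht).pow 2).deriv
    have h2 : deriv (fun s => k s ^ 2) t = ((2 : ℕ) : ℂ) * k t ^ (2 - 1) * deriv k t := this
    rw [h2]; norm_num
  have hK2 : ∀ t ∈ V, deriv (deriv (K0 a pa Z pb)) t =
      2 * deriv k t ^ 2 + 2 * k t * deriv (deriv k) t := by
    intro t ht
    have h1 : deriv (K0 a pa Z pb) =ᶠ[𝓝 t] fun s => 2 * k s * deriv k s := by
      filter_upwards [hV.mem_nhds ht] with s hs using hK1 s hs
    rw [h1.deriv_eq]
    have h2 := (((hkt t ht).const_mul 2).mul (hkt' t ht)).deriv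
    have h3 : deriv (fun s => 2 * k s * deriv k s) t =
        2 * deriv k t * deriv k t + 2 * k t * deriv (deriv k) t := h2
    rw [h3]; ring
  have hP : ∀ t ∈ V, Ps a Z t = deriv ψ t := by
    intro t ht
    have hat : HasDerivAt a (deriv a t) t := (ha.differentiableAt (hV.mem_nhds ht)).hasDerivAt
    have h1 : Z =ᶠ[𝓝 t] fun s => exp (I * (2 * ψ s - a s)) := by
      filter_upwards [hV.mem_nhds ht] with s hs using r1 s hs
    have h2 : deriv (fun s => exp (I * (2 * ψ s - a s))) t =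
        exp (I * (2 * ψ t - a t)) * (I * (2 * deriv ψ t - deriv a t)) :=
      (((((hψt t ht).const_mul 2).sub hat).const_mul I).cexp).deriv
    unfold Ps
    rw [h1.deriv_eq, h2, h1.self_of_nhds]
    have h3 : exp (I * (2 * ψ t - a t)) ≠ 0 := exp_ne_zero _
    have h4 : exp (I * (2 * ψ t - a t)) * (I * (2 * deriv ψ t - deriv a t)) /
        exp (I * (2 * ψ t - a t)) = I * (2 * deriv ψ t - deriv a t) := by
      field_simp
    rw [h4]
    linear_combination (-(2 * deriv ψ t - deriv a t) / 2) * I_mul_I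
  intro t ht
  have hP' : deriv (Ps a Z) t = deriv (deriv ψ) t := by
    have h1 : Ps a Z =ᶠ[𝓝 t] deriv ψ := by
      filter_upwards [hV.mem_nhds ht] with s hs using hP s hs
    exact h1.deriv_eq
  have hWr := Wr_comp E.dΦ E.dq hV hθ ht
  rw [E.wr] at hWr
  unfold SC.Wr at hWr
  have hk0 : k t ≠ 0 := hq t ht
  have hc0 := E.c0
  unfold M6
  rw [hK t ht, hK1 t ht, hK2 t ht, hP t ht, hP']
  have e1 : deriv θ t ^ 6 = (c * deriv θ t ^ 3) ^ 2 / c ^ 2 := by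
    field_simp
  rw [e1, ← hWr]
  change (deriv (deriv k) t * deriv ψ t - deriv k t * deriv (deriv ψ) t + k t * deriv ψ t ^ 3) ^ 2 /
    c ^ 2 = _
  field_simp
  ring

end

end Vale.Agent.P097.H456.Edge
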